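import Mathlib

namespace Vale.Agent.P125

open Finset

/-- number of functions with a prescribed value at one point -/
lemma card_fiber_eval {E : Type} [Fintype E] [DecidableEq E] (L : ℕ) (e : E) (c : Fin (L + 1)) :
    ((univ.filter (fun φ : E → Fin (L + 1) => φ e = c)).card : ℝ) * (L + 1) =
      Fintype.card (E → Fin (L + 1)) := by
  have key : ∀ d : Fin (L + 1), (univ.filter (fun φ : E → Fin (L + 1) => φ e = d)).card =
      (univ.filter (fun φ : E → Fin (L + 1) => φ e = c)).card := by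
    intro d
    refine Finset.card_bij (fun φ _ => Function.update φ e c) ?_ ?_ ?_
    · intro φ _; simp
    · intro φ hφ ψ hψ h
      simp only [mem_filter, mem_univ, true_and] at hφ hψ
      funext x
      by_cases hx : x = e
      · subst hx; rw [hφ, hψ]
      · have := congrFun h x
        simpa [Function.update_of_ne hx] using this
    · intro φ hφ
      simp only [mem_filter, mem_univ, true_and] at hφ
      refine ⟨Function.update φ e d, by simp, ?_⟩
      simp [← hφ]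
  have h := Finset.card_eq_sum_card_fiberwise (f := fun φ : E → Fin (L + 1) => φ e)
    (s := univ) (t := univ) (by intro x _; simp)
  rw [Finset.card_univ] at h
  rw [h]
  simp only [key, sum_const, card_univ, Fintype.card_fin, smul_eq_mul]
  push_cast; ring

/-- The universal abelian cover, truncated. -/
lemma cover {ι : Type} [Fintype ι] {G : Type} [AddCommGroup G] (S : Type) [Fintype S] [Nonempty S]
    (σ : ι → Equiv.Perm S) (good : ι → Finset S) [DecidableEq S] (ε δ : ℝ) (hδ : 0 < δ)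
    (hbad : ∀ i, (((good i)ᶜ).card : ℝ) ≤ ε * Fintype.card S) (ψ : ι → S → G) :
    ∃ (S' : Type) (_ : Fintype S') (_ : Nonempty S') (_ : DecidableEq S')
      (σ' : ι → Equiv.Perm S') (good' : ι → Finset S') (pr : S' → S) (Ψ : S' → G),
      (∀ i, (((good' i)ᶜ).card : ℝ) ≤ (ε + δ) * Fintype.card S') ∧
      (∀ i z, pr (σ' i z) = σ i (pr z)) ∧
      (∀ i z, z ∈ good' i → pr z ∈ good i ∧ Ψ (σ' i z) = Ψ z + ψ i (pr z)) := by
  classical
  obtain ⟨L, hL⟩ := exists_nat_one_div_lt hδ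
  let Φ := (ι × S) → Fin (L + 1)
  let σ' : ι → Equiv.Perm (S × Φ) := fun i =>
    { toFun := fun z => (σ i z.1, z.2 + Pi.single (i, z.1) 1)
      invFun := fun z => ((σ i).symm z.1, z.2 - Pi.single (i, (σ i).symm z.1) 1)
      left_inv := by intro z; simp
      right_inv := by intro z; simp }
  refine ⟨S × Φ, inferInstance, inferInstance, inferInstance, σ',
    fun i => univ.filter (fun z => z.1 ∈ good i ∧ z.2 (i, z.1) ≠ Fin.last L), Prod.fst,
    fun z => ∑ e, (z.2 e).val • ψ e.1 e.2, ?_, ?_, ?_⟩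
  · intro i
    have hsub : (univ.filter (fun z : S × Φ => z.1 ∈ good i ∧ z.2 (i, z.1) ≠ Fin.last L))ᶜ ⊆
        ((good i)ᶜ ×ˢ (univ : Finset Φ)) ∪
          univ.filter (fun z : S × Φ => z.2 (i, z.1) = Fin.last L) := by
      intro z hz
      simp only [mem_compl, mem_filter, mem_univ, true_and, not_and, not_not, mem_union,
        mem_product, and_true] at hz ⊢
      by_cases h : z.1 ∈ good i
      · exact Or.inr (hz h)
      · exact Or.inl h
    have h1 := (Finset.card_le_card hsub).trans (Finset.card_union_le _ _)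
    have h2 : ((univ.filter (fun z : S × Φ => z.2 (i, z.1) = Fin.last L)).card : ℝ) * (L + 1) =
        Fintype.card S * Fintype.card Φ := by
      rw [Finset.card_filter, Fintype.sum_prod_type]
      push_cast
      rw [Finset.sum_mul]
      have : ∀ x : S, (∑ φ : Φ, if φ (i, x) = Fin.last L then (1 : ℝ) else 0) * (L + 1) =
          Fintype.card Φ := by
        intro x
        rw [← card_fiber_eval L (i, x) (Fin.last L), Finset.card_filter]
        push_cast; rfl
      simp only [this, sum_const, card_univ, nsmul_eq_mul]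
    have h1' : (((univ.filter (fun z : S × Φ => z.1 ∈ good i ∧
        z.2 (i, z.1) ≠ Fin.last L))ᶜ).card : ℝ) ≤ ((good i)ᶜ).card * Fintype.card Φ +
        (univ.filter (fun z : S × Φ => z.2 (i, z.1) = Fin.last L)).card := by
      rw [Finset.card_product, Finset.card_univ] at h1
      exact_mod_cast h1
    rw [Fintype.card_prod]
    push_cast
    have hL' : (0 : ℝ) < L + 1 := by positivity
    have h3 : ((univ.filter (fun z : S × Φ => z.2 (i, z.1) = Fin.last L)).card : ℝ) ≤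
        δ * (Fintype.card S * Fintype.card Φ) := by
      rw [← h2]
      have : 1 ≤ δ * (L + 1) := by
        rw [div_lt_iff₀ hL'] at hL; exact hL.le
      have h0 : (0 : ℝ) ≤ (univ.filter (fun z : S × Φ => z.2 (i, z.1) = Fin.last L)).card := by
        positivity
      nlinarith
    have h4 := hbad i
    have h5 : (0 : ℝ) ≤ Fintype.card Φ := by positivity
    nlinarith
  · intro i z; rfl
  · intro i z hz
    simp only [mem_filter, mem_univ, true_and] at hz
    refine ⟨hz.1, ?_⟩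
    change ∑ e, ((z.2 + Pi.single (i, z.1) 1 : Φ) e).val • ψ e.1 e.2 = _
    have : ∀ e : ι × S, ((z.2 + Pi.single (i, z.1) 1 : Φ) e).val • ψ e.1 e.2 =
        (z.2 e).val • ψ e.1 e.2 + if e = (i, z.1) then ψ e.1 e.2 else 0 := by
      intro e
      have e0 : (z.2 + Pi.single (i, z.1) 1 : Φ) e =
          z.2 e + (Pi.single (i, z.1) 1 : ι × S → Fin (L + 1)) e := rfl
      rw [e0]
      by_cases he : e = (i, z.1)
      · subst he
        simp only [Pi.single_eq_same, if_true]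
        rw [Fin.val_add_one, if_neg hz.2, add_smul, one_smul]
      · simp [he]
    simp only [this, Finset.sum_add_distrib]
    simp

/-- finite models of systems of order constraints -/
def Mod (ι : Type) (ε : ℝ) (U Lo : ι → ℕ → ℕ → Prop) : Prop :=
  ∃ (S : Type) (_ : Fintype S) (_ : Nonempty S) (_ : DecidableEq S)
    (σ : ι → Equiv.Perm S) (good : ι → Finset S) (m : S → ℕ → ℕ),
    (∀ i, (((good i)ᶜ).card : ℝ) ≤ ε * Fintype.card S) ∧ (∀ x, StrictMono (m x)) ∧
    (∀ i x, x ∈ good i → ∀ p q, (U i p q → m (σ i x) p < m x q) ∧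
      (Lo i p q → m x q < m (σ i x) p))

lemma Mod.mono {ι : Type} {ε : ℝ} {U Lo U' Lo' : ι → ℕ → ℕ → Prop} (h : Mod ι ε U Lo)
    (hU : ∀ i p q, U' i p q → U i p q) (hL : ∀ i p q, Lo' i p q → Lo i p q) :
    Mod ι ε U' Lo' := by
  obtain ⟨S, i1, i2, i3, σ, good, m, h1, h2, h3⟩ := h
  exact ⟨S, i1, i2, i3, σ, good, m, h1, h2, fun i x hx p q =>
    ⟨fun h => (h3 i x hx p q).1 (hU _ _ _ h), fun h => (h3 i x hx p q).2 (hL _ _ _ h)⟩⟩

lemma Mod.base (ι : Type) : Mod ι 0 (fun _ _ _ => False) (fun _ _ _ => False) :=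
  ⟨Unit, inferInstance, inferInstance, inferInstance, fun _ => 1, fun _ => univ, fun _ => id,
    by simp, fun _ => strictMono_id, by simp⟩

lemma pow4_lt {a b c : ℕ} (ha : a < c) (hb : b < c) : 2 * (4 : ℤ) ^ a + 4 ^ b < 4 ^ c := by
  obtain ⟨d, rfl⟩ : ∃ d, c = d + 1 := ⟨c - 1, by omega⟩
  have h1 : (4 : ℤ) ^ a ≤ 4 ^ d := pow_le_pow_right₀ (by norm_num) (by omega)
  have h2 : (4 : ℤ) ^ b ≤ 4 ^ d := pow_le_pow_right₀ (by norm_num) (by omega)
  have h3 : (0 : ℤ) < 4 ^ d := by positivity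
  rw [pow_succ]; linarith

/-- general exponentiation step -/
lemma Mod.step {ι : Type} [Fintype ι] {ε δ : ℝ} (hδ : 0 < δ) {U Lo U' Lo' : ι → ℕ → ℕ → Prop}
    (h : Mod ι ε U Lo) (ψ : ι → (ℕ → ℕ) → (ℕ → ℕ) → ℤ)
    (hψ : ∀ i (a b : ℕ → ℕ), StrictMono a → StrictMono b →
      (∀ p q, (U i p q → b p < a q) ∧ (Lo i p q → a q < b p)) →
      ∀ p q, (U' i p q → ψ i a b + 4 ^ b p < 4 ^ a q) ∧
        (Lo' i p q → 4 ^ a q < ψ i a b + 4 ^ b p)) :
    Mod ι (ε + δ) U' Lo' := by
  obtain ⟨S, i1, i2, i3, σ, good, m, h1, h2, h3⟩ := h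
  obtain ⟨S', j1, j2, j3, σ', good', pr, Ψ, k1, k2, k3⟩ :=
    cover S σ good ε δ hδ h1 (fun i x => ψ i (m x) (m (σ i x)))
  obtain ⟨C, hC⟩ : ∃ C : ℤ, ∀ z, 0 ≤ Ψ z + C := by
    refine ⟨∑ z, |Ψ z|, fun z => ?_⟩
    have := Finset.single_le_sum (f := fun z => |Ψ z|) (s := univ) (fun z _ => abs_nonneg _)
      (mem_univ z)
    have := neg_abs_le (Ψ z)
    linarith
  refine ⟨S', j1, j2, j3, σ', good', fun z p => (Ψ z + C).toNat + 4 ^ m (pr z) p, k1, ?_, ?_⟩
  · intro z a b hab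
    have := Nat.pow_lt_pow_right (a := 4) (by norm_num) (h2 (pr z) hab)
    simp only
    omega
  · intro i z hz p q
    obtain ⟨hz1, hz2⟩ := k3 i z hz
    have := hψ i (m (pr z)) (m (σ i (pr z))) (h2 _) (h2 _) (h3 i _ hz1) p q
    have e1 : (((Ψ z + C).toNat : ℕ) : ℤ) = Ψ z + C := Int.toNat_of_nonneg (hC z)
    have e2 : (((Ψ (σ' i z) + C).toNat : ℕ) : ℤ) = Ψ (σ' i z) + C := Int.toNat_of_nonneg (hC _)
    constructor
    · intro hu
      have h5 := this.1 hu
      simp only [k2]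
      zify
      rw [e1, e2, hz2]; linarith
    · intro hu
      have h5 := this.2 hu
      simp only [k2]
      zify
      rw [e1, e2, hz2]; linarith

lemma Mod.addLo {ι : Type} [Fintype ι] {ε δ : ℝ} (hδ : 0 < δ) {U Lo : ι → ℕ → ℕ → Prop}
    (h : Mod ι ε U Lo) (qs : ι → ℕ) (hq : ∀ i p q, U i p q → qs i < q) :
    Mod ι (ε + δ) U (fun i p q => Lo i p q ∨ q = qs i) := by
  refine h.step hδ (fun i a _ => 2 * 4 ^ a (qs i)) ?_
  intro i a b ha hb hab p q
  refine ⟨fun hu => pow4_lt (ha (hq i p q hu)) ((hab p q).1 hu), fun hl => ?_⟩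
  have h1 : (0 : ℤ) < 4 ^ a (qs i) := by positivity
  have h2 : (0 : ℤ) < 4 ^ b p := by positivity
  rcases hl with hl | rfl
  · have : (4 : ℤ) ^ a q < 4 ^ b p := pow_lt_pow_right₀ (by norm_num) ((hab p q).2 hl)
    linarith
  · linarith

lemma Mod.addU {ι : Type} [Fintype ι] {ε δ : ℝ} (hδ : 0 < δ) {U Lo : ι → ℕ → ℕ → Prop}
    (h : Mod ι ε U Lo) (ps : ι → ℕ) (hp : ∀ i p q, Lo i p q → ps i < p) :
    Mod ι (ε + δ) (fun i p q => U i p q ∨ p = ps i) Lo := by
  refine h.step hδ (fun i _ b => -(2 * 4 ^ b (ps i))) ?_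
  intro i a b ha hb hab p q
  have h1 : (0 : ℤ) < 4 ^ b (ps i) := by positivity
  have h2 : (0 : ℤ) < 4 ^ a q := by positivity
  refine ⟨fun hu => ?_, fun hl => ?_⟩
  · rcases hu with hu | rfl
    · have : (4 : ℤ) ^ b p < 4 ^ a q := pow_lt_pow_right₀ (by norm_num) ((hab p q).1 hu)
      linarith
    · linarith
  · have := pow4_lt (hb (hp i p q hl)) ((hab p q).2 hl)
    linarith

/-- The ping-pong constraints for `K` periods starting from `k0`. -/
lemma pingpong_aux (r : ℕ) (δ : ℝ) (hδ : 0 < δ) (K : ℕ) : ∀ k0 : ℕ,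
    Mod (Fin r) (2 * K * δ)
      (fun i p q => ∃ k, k0 ≤ k ∧ k < k0 + K ∧ p = 2 * (r * k + i) + 1 ∧ q = 2 * (r * k + i) + 1)
      (fun i p q => ∃ k, k0 ≤ k ∧ k < k0 + K ∧ p = 2 * (r * k + i) + 2 ∧
        q = 2 * (r * (k + 1) + i)) := by
  induction K with
  | zero =>
    intro k0
    simp only [Nat.cast_zero, mul_zero, zero_mul]
    refine (Mod.base (Fin r)).mono ?_ ?_
    · rintro i p q ⟨k, h1, h2, -⟩; omega
    · rintro i p q ⟨k, h1, h2, -⟩; omega
  | succ K ih =>
    intro k0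
    have h1 := (ih (k0 + 1)).addLo hδ (fun i => 2 * (r * (k0 + 1) + i)) (by
      rintro i p q ⟨k, h1, h2, h3, h4⟩
      have : r * (k0 + 1) ≤ r * k := Nat.mul_le_mul_left _ h1
      omega)
    have h2 := (h1.mono (U' := fun (i : Fin r) p q => ∃ k, k0 + 1 ≤ k ∧ k < k0 + 1 + K ∧
        p = 2 * (r * k + i) + 1 ∧ q = 2 * (r * k + i) + 1)
      (Lo' := fun (i : Fin r) p q => ∃ k, k0 ≤ k ∧ k < k0 + (K + 1) ∧ p = 2 * (r * k + i) + 2 ∧
        q = 2 * (r * (k + 1) + i)) (fun _ _ _ h => h) (by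
      rintro i p q ⟨k, h1, h2, h3, h4⟩
      rcases Nat.eq_or_lt_of_le h1 with rfl | h5
      · exact Or.inr h4
      · exact Or.inl ⟨k, h5, by omega, h3, h4⟩)).addU hδ (fun i : Fin r => 2 * (r * k0 + i) + 1) (by
      rintro i p q ⟨k, h1, h2, h3, h4⟩
      have : r * k0 ≤ r * k := Nat.mul_le_mul_left _ h1
      omega)
    have e : 2 * ((K + 1 : ℕ) : ℝ) * δ = 2 * K * δ + δ + δ := by push_cast; ring
    rw [e]
    refine h2.mono ?_ (fun _ _ _ h => h)
    rintro i p q ⟨k, h1, h2, h3, h4⟩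
    rcases Nat.eq_or_lt_of_le h1 with rfl | h5
    · exact Or.inr h3
    · exact Or.inl ⟨k, h5, by omega, h3, h4⟩

/-- Final form: the model with a potential with prescribed increments. -/
lemma pingpong {G : Type} [AddCommGroup G] (r K : ℕ) (ε : ℝ) (hε : 0 < ε)
    (v : Fin r → (ℕ → ℕ) → G) :
    ∃ (S : Type) (_ : Fintype S) (_ : Nonempty S) (_ : DecidableEq S)
      (σ : Fin r → Equiv.Perm S) (good : Fin r → Finset S) (m : S → ℕ → ℕ) (f : S → G),
      (∀ i, (((good i)ᶜ).card : ℝ) ≤ ε * Fintype.card S) ∧ (∀ x, StrictMono (m x)) ∧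
      (∀ i x, x ∈ good i → f (σ i x) = f x + v i (m x) ∧ ∀ k < K,
        m (σ i x) (2 * (r * k + i) + 1) < m x (2 * (r * k + i) + 1) ∧
        m x (2 * (r * (k + 1) + i)) < m (σ i x) (2 * (r * k + i) + 2)) := by
  have hδ : 0 < ε / (2 * K + 1) := by positivity
  obtain ⟨S, i1, i2, i3, σ, good, m, h1, h2, h3⟩ := pingpong_aux r _ hδ K 0
  obtain ⟨S', j1, j2, j3, σ', good', pr, Ψ, k1, k2, k3⟩ :=
    cover S σ good _ _ hδ h1 (fun i x => v i (m x))
  refine ⟨S', j1, j2, j3, σ', good', fun z => m (pr z), Ψ, ?_, fun z => h2 _, ?_⟩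
  · intro i
    refine (k1 i).trans (le_of_eq ?_)
    congr 1
    field_simp
  · intro i z hz
    obtain ⟨hz1, hz2⟩ := k3 i z hz
    refine ⟨hz2, fun k hk => ?_⟩
    simp only [k2]
    exact ⟨(h3 i _ hz1 _ _).1 ⟨k, by omega, by omega, rfl, rfl⟩,
      (h3 i _ hz1 _ _).2 ⟨k, by omega, by omega, rfl, rfl⟩⟩

end Vale.Agent.P125
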