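import Mathlib

namespace Vale.Agent.P125

open Finset

/-- Markov type inequality for a length function `N` with constant `C`. -/
def MT {V : Type*} [AddCommGroup V] (N : V → ℝ) (p C : ℝ) : Prop :=
  ∀ (S : Type) [Fintype S] [DecidableEq S] (μ : S → ℝ) (P : Matrix S S ℝ),
    (∀ i, 0 ≤ μ i) → ∑ i, μ i = 1 → (∀ i j, 0 ≤ P i j) → (∀ i, ∑ j, P i j = 1) →
    (∀ i j, μ i * P i j = μ j * P j i) →
    ∀ (f : S → V) (t : ℕ), 1 ≤ t →
      ∑ i, ∑ j, μ i * (P ^ t) i j * N (f j - f i) ^ p ≤
        C * t * ∑ i, ∑ j, μ i * P i j * N (f j - f i) ^ p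

/-- expectation over uniformly random words of length `n` -/
noncomputable def Ex {A : Type} [Fintype A] : ℕ → (List A → ℝ) → ℝ
  | 0, F => F []
  | n + 1, F => (∑ s, Ex n (fun l => F (s :: l))) / Fintype.card A

lemma Ex_mono {A : Type} [Fintype A] (n : ℕ) : ∀ (F G : List A → ℝ),
    (∀ l, l.length = n → F l ≤ G l) → Ex n F ≤ Ex n G := by
  induction n with
  | zero => intro F G h; exact h [] rfl
  | succ n ih =>
    intro F G h
    simp only [Ex]
    refine div_le_div_of_nonneg_right (Finset.sum_le_sum fun s _ => ih _ _ ?_) (by positivity)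
    intro l hl
    exact h _ (by simp [hl])

lemma Ex_affine {A : Type} [Fintype A] [Nonempty A] (n : ℕ) : ∀ (F : List A → ℝ) (a b : ℝ),
    Ex n (fun l => a + b * F l) = a + b * Ex n F := by
  induction n with
  | zero => intro F a b; rfl
  | succ n ih =>
    intro F a b
    simp only [Ex]
    have hA : (0 : ℝ) < Fintype.card A := by exact_mod_cast Fintype.card_pos
    have : ∀ s, Ex n (fun l => a + b * F (s :: l)) = a + b * Ex n (fun l => F (s :: l)) :=
      fun s => ih _ a b
    simp only [this, Finset.sum_add_distrib, sum_const, card_univ, nsmul_eq_mul,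
      ← Finset.mul_sum]
    field_simp

/-- run a word -/
def run {A S : Type} (T : A → S → S) : S → List A → S
  | x, [] => x
  | x, s :: l => run T (T s x) l

/-- good non-backtracking words -/
def Ok {A S : Type} (τ : A → Equiv.Perm S) (bar : A → A) (good : A → S → Prop) :
    S → A → List A → Prop
  | _, _, [] => True
  | x, s0, s :: l => good s x ∧ s ≠ bar s0 ∧ Ok τ bar good (τ s x) s l

open Classical in
lemma ok_count {A S : Type} [Fintype A] [Nonempty A] [Fintype S] (τ : A → Equiv.Perm S)
    (bar : A → A) (good : A → S → Prop) (ε : ℝ)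
    (hbad : ∀ s, ∑ x, (if good s x then (0 : ℝ) else 1) ≤ ε * Fintype.card S) (n : ℕ) :
    ∀ s0 : A, ∑ x, Ex n (fun l => if Ok τ bar good x s0 l then (0 : ℝ) else 1) ≤
      n * (ε + 1 / Fintype.card A) * Fintype.card S := by
  have hA : (0 : ℝ) < Fintype.card A := by exact_mod_cast Fintype.card_pos
  induction n with
  | zero => intro s0; simp [Ex, Ok]
  | succ n ih =>
    intro s0
    simp only [Ex]
    have h1 : ∀ x s, Ex n (fun l => if Ok τ bar good x s0 (s :: l) then (0 : ℝ) else 1) ≤
        ((if good s x then (0 : ℝ) else 1) + (if s = bar s0 then (1 : ℝ) else 0)) +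
          1 * Ex n (fun l => if Ok τ bar good (τ s x) s l then (0 : ℝ) else 1) := by
      intro x s
      rw [← Ex_affine]
      refine Ex_mono n _ _ fun l _ => ?_
      have e : Ok τ bar good x s0 (s :: l) ↔
          good s x ∧ s ≠ bar s0 ∧ Ok τ bar good (τ s x) s l := Iff.rfl
      by_cases a : good s x
      · by_cases b : s = bar s0
        · rw [if_pos a, if_pos b]; split_ifs <;> norm_num
        · rw [if_pos a, if_neg b]
          by_cases c : Ok τ bar good (τ s x) s l
          · rw [if_pos c, if_pos (e.2 ⟨a, b, c⟩)]; norm_num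
          · rw [if_neg c]; split_ifs <;> norm_num
      · rw [if_neg a]; split_ifs <;> norm_num
    have h2 : ∑ x, (∑ s, Ex n (fun l => if Ok τ bar good x s0 (s :: l) then (0 : ℝ) else 1)) ≤
        Fintype.card A * (ε * Fintype.card S) + Fintype.card S +
          Fintype.card A * (n * (ε + 1 / Fintype.card A) * Fintype.card S) := by
      refine (Finset.sum_le_sum fun x _ => Finset.sum_le_sum fun s _ => h1 x s).trans ?_
      rw [Finset.sum_comm]
      simp only [Finset.sum_add_distrib, one_mul]
      refine add_le_add (add_le_add ?_ ?_) ?_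
      · refine (Finset.sum_le_sum fun s _ => hbad s).trans ?_
        simp
      · rw [Finset.sum_comm]
        simp
      · refine (Finset.sum_le_sum fun s _ => (le_of_eq ?_).trans (ih s)).trans ?_
        · exact Equiv.sum_comp (τ s)
            (fun x => Ex n (fun l => if Ok τ bar good x s l then (0 : ℝ) else 1))
        · simp
    rw [← Finset.sum_div, div_le_iff₀ hA]
    refine h2.trans (le_of_eq ?_)
    push_cast
    field_simp
    ring

open Classical in
lemma run_ok {A S : Type} (τ : A → Equiv.Perm S) (bar : A → A) (good : A → S → Prop)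
    (l : List A) : ∀ x s0, Ok τ bar good x s0 l →
      run (fun s x => if good s x then τ s x else x) x l = run (fun s x => τ s x) x l := by
  induction l with
  | nil => intro x s0 _; rfl
  | cons s l ih =>
    intro x s0 h
    simp only [run, if_pos h.1]
    exact ih _ _ h.2.2

lemma pow_apply_run {A S : Type} [Fintype A] [Nonempty A] [Fintype S] [DecidableEq S]
    (T : A → S → S) (P : Matrix S S ℝ)
    (hP : ∀ x (g : S → ℝ), ∑ y, P x y * g y = (∑ s, g (T s x)) / Fintype.card A) (n : ℕ) :
    ∀ x (g : S → ℝ), ∑ y, (P ^ n) x y * g y = Ex n (fun l => g (run T x l)) := by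
  induction n with
  | zero => intro x g; simp [Ex, run, Matrix.one_apply]
  | succ n ih =>
    intro x g
    simp only [pow_succ', Matrix.mul_apply, Finset.sum_mul, Ex, run]
    rw [Finset.sum_comm]
    simp only [mul_assoc, ← Finset.mul_sum, ih]
    exact hP x _

theorem walk {V : Type*} [AddCommGroup V] (N : V → ℝ) (hN0 : N 0 = 0) (hNn : ∀ v, 0 ≤ N v)
    {p C : ℝ} (hp : 0 < p) (hC : 0 ≤ C) (hMT : MT N p C)
    {A S : Type} [Fintype A] [Nonempty A] [Fintype S] [Nonempty S]
    (τ : A → Equiv.Perm S) (bar : A ≃ A) (good : A → S → Prop)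
    (hτ : ∀ s x, τ (bar s) (τ s x) = x) (hbb : ∀ s, bar (bar s) = s)
    (hgood : ∀ s x, good s x → good (bar s) (τ s x)) (ε : ℝ)
    (hbad : ∀ s, ∑ x, (by classical exact if good s x then (0 : ℝ) else 1) ≤ ε * Fintype.card S)
    (f : S → V) (n : ℕ) (hn : 1 ≤ n) (D E : ℝ) (hD : 0 ≤ D) (hE : 0 ≤ E)
    (hstep : ∀ s x, good s x → N (f (τ s x) - f x) ≤ D)
    (hlong : ∀ x s0 l, l.length = n → Ok τ bar good x s0 l →
      E ≤ N (f (run (fun s x => τ s x) x l) - f x)) :
    (1 - n * (ε + 1 / Fintype.card A)) * E ^ p ≤ C * n * D ^ p := by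
  classical
  have hA : (0 : ℝ) < Fintype.card A := by exact_mod_cast Fintype.card_pos
  have hS : (0 : ℝ) < Fintype.card S := by exact_mod_cast Fintype.card_pos
  let T : A → S → S := fun s x => if good s x then τ s x else x
  let P : Matrix S S ℝ := fun x y => (∑ s, if T s x = y then (1 : ℝ) else 0) / Fintype.card A
  have hP : ∀ x (g : S → ℝ), ∑ y, P x y * g y = (∑ s, g (T s x)) / Fintype.card A := by
    intro x g
    simp only [P, div_mul_eq_mul_div, ← Finset.sum_div, Finset.sum_mul]
    rw [Finset.sum_comm]
    simp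
  have hsym : ∀ x y, P x y = P y x := by
    intro x y
    by_cases hxy : x = y
    · rw [hxy]
    simp only [P]
    congr 1
    rw [← Equiv.sum_comp bar]
    refine Finset.sum_congr rfl fun s _ => ?_
    have : T (bar s) x = y ↔ T s y = x := by
      simp only [T]
      constructor
      · intro h
        by_cases g1 : good (bar s) x
        · rw [if_pos g1] at h
          have g2 := hgood _ _ g1
          have g3 := hτ (bar s) x
          rw [hbb, h] at g2 g3
          rw [if_pos g2, g3]
        · rw [if_neg g1] at h; exact absurd h hxy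
      · intro h
        by_cases g1 : good s y
        · rw [if_pos g1] at h
          have g2 := hgood _ _ g1
          have g3 := hτ s y
          rw [h] at g2 g3
          rw [if_pos g2, g3]
        · rw [if_neg g1] at h; exact absurd h.symm hxy
    simp only [this]
  have key := hMT S (fun _ => 1 / Fintype.card S) P (fun _ => by positivity)
    (by simp) (fun x y => by simp only [P]; positivity)
    (fun x => by
      have := hP x (fun _ => 1)
      simp only [mul_one, sum_const, card_univ, nsmul_eq_mul] at this
      rw [this, div_self hA.ne'])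
    (fun x y => by rw [hsym]) f n hn
  obtain ⟨s0⟩ : Nonempty A := inferInstance
  have hL : (1 - n * (ε + 1 / Fintype.card A)) * E ^ p ≤
      ∑ i, ∑ j, 1 / (Fintype.card S : ℝ) * (P ^ n) i j * N (f j - f i) ^ p := by
    simp only [mul_assoc, ← Finset.mul_sum]
    have e1 : ∀ x, E ^ p + (-E ^ p) *
        Ex n (fun l => if Ok τ bar good x s0 l then (0 : ℝ) else 1) ≤
        ∑ y, (P ^ n) x y * N (f y - f x) ^ p := by
      intro x
      rw [pow_apply_run T P hP n x (fun y => N (f y - f x) ^ p), ← Ex_affine]
      refine Ex_mono n _ _ fun l hl => ?_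
      by_cases h : Ok τ bar good x s0 l
      · rw [if_pos h, mul_zero, add_zero]
        have := run_ok τ bar good l x s0 h
        simp only [T]
        rw [this]
        exact Real.rpow_le_rpow hE (hlong x s0 l hl h) hp.le
      · rw [if_neg h, mul_one, add_neg_cancel]
        exact Real.rpow_nonneg (hNn _) _
    have e2 := Finset.sum_le_sum fun x (_ : x ∈ univ) => e1 x
    simp only [Finset.sum_add_distrib, sum_const, card_univ, nsmul_eq_mul,
      ← Finset.mul_sum] at e2
    have e3 := ok_count τ bar good ε hbad n s0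
    have e4 : 0 ≤ E ^ p := Real.rpow_nonneg hE _
    rw [one_div (Fintype.card S : ℝ), ← div_eq_inv_mul, le_div_iff₀ hS]
    refine le_trans ?_ e2
    have := mul_le_mul_of_nonneg_left e3 e4
    nlinarith
  have hR : ∑ i, ∑ j, 1 / (Fintype.card S : ℝ) * P i j * N (f j - f i) ^ p ≤ D ^ p := by
    simp only [mul_assoc, ← Finset.mul_sum]
    have e1 : ∀ x, ∑ y, P x y * N (f y - f x) ^ p ≤ D ^ p := by
      intro x
      rw [hP x (fun y => N (f y - f x) ^ p), div_le_iff₀ hA]
      have : ∀ s, N (f (T s x) - f x) ^ p ≤ D ^ p := by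
        intro s
        refine Real.rpow_le_rpow (hNn _) ?_ hp.le
        simp only [T]
        by_cases g : good s x
        · rw [if_pos g]; exact hstep s x g
        · rw [if_neg g, sub_self, hN0]; exact hD
      refine (Finset.sum_le_sum fun s _ => this s).trans (le_of_eq ?_)
      simp [mul_comm]
    rw [one_div, ← div_eq_inv_mul, div_le_iff₀ hS]
    refine (Finset.sum_le_sum fun x _ => e1 x).trans (le_of_eq ?_)
    simp [mul_comm]
  refine hL.trans (key.trans ?_)
  exact mul_le_mul_of_nonneg_left hR (by positivity)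

end Vale.Agent.P125
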