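import Mathlib
import Vale.Agent.P125.Walk
import Vale.Agent.P125.Model

namespace Vale.Agent.P125

open Finset

/-- finitely supported sequences -/
abbrev V := ℕ →₀ ℝ

/-- spreading operator -/
noncomputable def sp (g : ℕ → ℕ) : V →ₗ[ℝ] V := Finsupp.lmapDomain ℝ ℝ g

lemma sp_single (g : ℕ → ℕ) (i : ℕ) (c : ℝ) : sp g (Finsupp.single i c) = Finsupp.single (g i) c := by
  simp [sp]

lemma sp_sp (g h : ℕ → ℕ) (a : V) : sp g (sp h a) = sp (fun i => g (h i)) a := by
  simp only [sp, Finsupp.lmapDomain_apply]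
  rw [← Finsupp.mapDomain_comp]; rfl

lemma sp_congr {g h : ℕ → ℕ} {a : V} (H : ∀ i ∈ a.support, g i = h i) : sp g a = sp h a := by
  simp only [sp, Finsupp.lmapDomain_apply]
  exact Finsupp.mapDomain_congr H

lemma sp_id (a : V) : sp (fun i => i) a = a := by
  simp only [sp, Finsupp.lmapDomain_apply]
  exact Finsupp.mapDomain_id

lemma sp_support {g : ℕ → ℕ} {a : V} {j : ℕ} (hj : j ∈ (sp g a).support) :
    ∃ i ∈ a.support, g i = j := by
  have := Finsupp.mapDomain_support (f := g) (s := a) hj
  simpa using this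

/-- invariance under spreading -/
def IS (N : V → ℝ) : Prop := ∀ g, StrictMono g → ∀ a, N (sp g a) = N a

/-- replace each unit vector by the sum of `n` consecutive ones -/
noncomputable def blow (n : ℕ) : V →ₗ[ℝ] V := ∑ r ∈ range n, sp (fun i => i * n + r)

lemma IS.on {N : V → ℝ} (h : IS N) {g : ℕ → ℕ} {M : ℕ} (hg : ∀ x, x + 1 < M → g x < g (x + 1))
    {a : V} (ha : ∀ i ∈ a.support, i < M) : N (sp g a) = N a := by
  let g' : ℕ → ℕ := fun x => if x < M then g x else g (M - 1) + 1 + x
  have h1 : StrictMono g' := by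
    refine strictMono_nat_of_lt_succ fun x => ?_
    simp only [g']
    by_cases h1 : x + 1 < M
    · rw [if_pos h1, if_pos (by omega)]; exact hg x h1
    · rw [if_neg h1]
      by_cases h2 : x < M
      · rw [if_pos h2]
        have : M - 1 = x := by omega
        rw [this]; omega
      · rw [if_neg h2]; omega
  rw [← h g' h1 a]
  congr 1
  exact sp_congr fun i hi => by simp [g', ha i hi]

lemma shift_est (N : Seminorm ℝ V) (h : IS N) (u : V) (η : ℝ)
    (hu : N (u + sp (fun i => i + 1) u) ≤ η) (c : ℕ) :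
    N (u - sp (fun i => i + 2 * c) u) ≤ 2 * c * η := by
  have h2 : N (u - sp (fun i => i + 2) u) ≤ 2 * η := by
    have e : u - sp (fun i => i + 2) u = (u + sp (fun i => i + 1) u) -
        sp (fun i => i + 1) (u + sp (fun i => i + 1) u) := by
      rw [map_add, sp_sp]; abel
    rw [e]
    refine (map_sub_le_add N _ _).trans ?_
    rw [h _ (strictMono_nat_of_lt_succ fun x => by omega)]
    linarith
  induction c with
  | zero => simp [sp_id]
  | succ c ih =>
    have e : u - sp (fun i => i + 2 * (c + 1)) u = (u - sp (fun i => i + 2 * c) u) +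
        sp (fun i => i + 2 * c) (u - sp (fun i => i + 2) u) := by
      rw [map_sub, sp_sp]
      have : (fun i => i + 2 + 2 * c) = fun i => i + 2 * (c + 1) := by funext i; ring
      rw [this]; abel
    rw [e]
    refine (map_add_le_add N _ _).trans ?_
    rw [h _ (strictMono_nat_of_lt_succ fun x => by omega)]
    push_cast
    linarith

lemma path (N : Seminorm ℝ V) (h : IS N) (u : V) (η : ℝ) (hη : 0 ≤ η)
    (hu : N (u + sp (fun i => i + 1) u) ≤ η)
    {A S : Type} (τ : A → Equiv.Perm S) (bar : A → A) (good : A → S → Prop)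
    (hgood : ∀ s x, good s x → good (bar s) (τ s x))
    (P : S → A → ℕ → ℕ) (hP : ∀ x s, StrictMono (P x s))
    (hrev : ∀ s x, ∃ α ≤ 1, ∀ a, P (τ s x) (bar s) (a + 1) = P x s (a + 2 * α)) (K : ℕ)
    (hnest : ∀ y s s', good s y → good s' y → s' ≠ s → ∃ lam ≤ 1, ∀ k, k + 1 < K →
      P y s (2 * k + 1) < P y s' (2 * (k + lam)) ∧ P y s' (2 * (k + lam) + 1) < P y s (2 * k + 2))
    (f : S → V) (hstep : ∀ s x, good s x → N (f (τ s x) - f x - sp (P x s) u) ≤ η) (cm : ℕ)
    (l : List A) : ∀ x s s0 c, Ok τ bar good x s0 (s :: l) → l.length ≤ c → c + l.length ≤ cm →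
      ∃ Q : ℕ → ℕ → ℕ, Q 0 = (fun a => P x s (a + 2 * c)) ∧ (∀ j, StrictMono (Q j)) ∧
        (∀ j < l.length, ∀ k, k + cm + 1 < K →
          Q j (2 * k) < Q (j + 1) (2 * k) ∧ Q (j + 1) (2 * k + 1) < Q j (2 * k + 1)) ∧
        N (f (run (fun s x => τ s x) x (s :: l)) - f x -
          ∑ j ∈ range (l.length + 1), sp (Q j) u) ≤ (l.length + 1) * ((2 * cm + 1) * η) := by
  have one : ∀ x s c, good s x → c ≤ cm →
      N (f (τ s x) - f x - sp (fun a => P x s (a + 2 * c)) u) ≤ (2 * cm + 1) * η := by
    intro x s c hg hc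
    have e : f (τ s x) - f x - sp (fun a => P x s (a + 2 * c)) u =
        (f (τ s x) - f x - sp (P x s) u) + sp (P x s) (u - sp (fun i => i + 2 * c) u) := by
      rw [map_sub, sp_sp]; abel
    rw [e]
    refine (map_add_le_add N _ _).trans ?_
    rw [h _ (hP x s)]
    have h1 := hstep s x hg
    have h2 := shift_est N h u η hu c
    have h3 : (c : ℝ) ≤ cm := by exact_mod_cast hc
    nlinarith
  have mono : ∀ x s c, StrictMono (fun a => P x s (a + 2 * c)) :=
    fun x s c a b hab => hP x s (by simpa using hab)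
  induction l with
  | nil =>
    intro x s s0 c hok _ hc
    refine ⟨fun _ a => P x s (a + 2 * c), rfl, fun _ => mono x s c, by simp, ?_⟩
    simpa [run] using one x s c hok.1 (by simpa using hc)
  | cons s' l ih =>
    intro x s s0 c hok hc1 hc2
    simp only [List.length_cons] at hc1 hc2
    obtain ⟨hg, -, hok'⟩ := hok
    obtain ⟨α, hα, hα'⟩ := hrev s x
    obtain ⟨lam, hl, hl'⟩ := hnest (τ s x) (bar s) s' (hgood s x hg) hok'.1 hok'.2.1
    obtain ⟨Q, q0, q1, q2, q3⟩ := ih (τ s x) s' s (c - α + lam) hok' (by omega) (by omega)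
    refine ⟨fun j => Nat.casesOn j (fun a => P x s (a + 2 * c)) Q, rfl, ?_, ?_, ?_⟩
    · intro j
      cases j with
      | zero => exact mono x s c
      | succ j => exact q1 j
    · intro j hj k hk
      cases j with
      | zero =>
        simp only [q0]
        obtain ⟨b1, b2⟩ := hl' (k + c - α) (by omega)
        rw [hα'] at b1
        rw [show 2 * (k + c - α) + 2 = (2 * (k + c - α) + 1) + 1 by ring, hα'] at b2
        change P x s (2 * k + 2 * c) < P (τ s x) s' (2 * k + 2 * (c - α + lam)) ∧
          P (τ s x) s' (2 * k + 1 + 2 * (c - α + lam)) < P x s (2 * k + 1 + 2 * c)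
        rw [show 2 * k + 2 * c = 2 * (k + c - α) + 2 * α by omega,
          show 2 * k + 2 * (c - α + lam) = 2 * (k + c - α + lam) by omega,
          show 2 * k + 1 + 2 * (c - α + lam) = 2 * (k + c - α + lam) + 1 by omega,
          show 2 * k + 1 + 2 * c = 2 * (k + c - α) + 1 + 2 * α by omega]
        exact ⟨b1, b2⟩
      | succ j => exact q2 j (by simpa using hj) k hk
    · rw [List.length_cons, Finset.sum_range_succ']
      have e : f (run (fun s x => τ s x) x (s :: s' :: l)) - f x -
          (∑ j ∈ range (l.length + 1), sp (Q j) u + sp (fun a => P x s (a + 2 * c)) u) =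
          (f (run (fun s x => τ s x) (τ s x) (s' :: l)) - f (τ s x) -
            ∑ j ∈ range (l.length + 1), sp (Q j) u) +
          (f (τ s x) - f x - sp (fun a => P x s (a + 2 * c)) u) := by
        simp only [run]; abel
      refine (le_of_eq (congrArg N e)).trans ((map_add_le_add N _ _).trans ?_)
      have := one x s c hg (by omega)
      push_cast
      linarith

lemma assemble (N : V → ℝ) (h : IS N) (u : V) (M : ℕ) (hu : ∀ i ∈ u.support, i < 2 * M)
    (n : ℕ) (hn : 0 < n) (Q : ℕ → ℕ → ℕ) (hQ : ∀ j, StrictMono (Q j))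
    (hnest : ∀ j, j + 1 < n → ∀ k < M,
      Q j (2 * k) < Q (j + 1) (2 * k) ∧ Q (j + 1) (2 * k + 1) < Q j (2 * k + 1)) :
    N (∑ j ∈ range n, sp (Q j) u) = N (blow n u) := by
  let H : ℕ → ℕ := fun x => if (x / n) % 2 = 0 then Q (x % n) (x / n) else Q (n - 1 - x % n) (x / n)
  have hdiv : ∀ i r, r < n → (i * n + r) / n = i ∧ (i * n + r) % n = r := by
    intro i r hr
    constructor
    · rw [add_comm, Nat.add_mul_div_right _ _ hn, Nat.div_eq_of_lt hr, zero_add]
    · rw [add_comm, Nat.add_mul_mod_self_right, Nat.mod_eq_of_lt hr]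
  have hH : ∀ i r, r < n → H (i * n + r) = if i % 2 = 0 then Q r i else Q (n - 1 - r) i := by
    intro i r hr
    simp only [H, (hdiv i r hr).1, (hdiv i r hr).2]
  have e : ∀ a : V, ∑ j ∈ range n, sp (Q j) a = sp H (blow n a) := by
    intro a
    induction a using Finsupp.induction_linear with
    | zero => simp
    | add a b ha hb => simp only [map_add, Finset.sum_add_distrib, ha, hb]
    | single i c =>
      simp only [blow, LinearMap.sum_apply, map_sum, sp_single]
      by_cases hi : i % 2 = 0
      · refine Finset.sum_congr rfl fun r hr => ?_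
        rw [hH i r (mem_range.1 hr), if_pos hi]
      · rw [← Finset.sum_range_reflect]
        refine Finset.sum_congr rfl fun r hr => ?_
        rw [hH i r (mem_range.1 hr), if_neg hi]
  rw [e]
  refine h.on (M := 2 * M * n) ?_ ?_
  · intro x hx
    obtain ⟨i, r, hr, rfl⟩ : ∃ i r, r < n ∧ x = i * n + r :=
      ⟨x / n, x % n, Nat.mod_lt _ hn, by rw [mul_comm]; exact (Nat.div_add_mod x n).symm⟩
    have hi : i < 2 * M := by
      by_contra hc
      have : 2 * M * n ≤ i * n := Nat.mul_le_mul_right _ (by omega)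
      omega
    by_cases hr1 : r + 1 < n
    · rw [add_assoc, hH i r hr, hH i (r + 1) hr1]
      by_cases hi2 : i % 2 = 0
      · rw [if_pos hi2, if_pos hi2]
        have := (hnest r hr1 (i / 2) (by omega)).1
        rwa [show 2 * (i / 2) = i by omega] at this
      · rw [if_neg hi2, if_neg hi2]
        have := (hnest (n - 1 - (r + 1)) (by omega) (i / 2) (by omega)).2
        rwa [show 2 * (i / 2) + 1 = i by omega, show n - 1 - (r + 1) + 1 = n - 1 - r by omega]
          at this
    · rw [show i * n + r + 1 = (i + 1) * n + 0 by rw [add_mul]; omega, hH i r hr,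
        hH (i + 1) 0 hn]
      by_cases hi2 : i % 2 = 0
      · rw [if_pos hi2, if_neg (by omega), show n - 1 - 0 = r by omega]
        exact hQ r (by omega)
      · rw [if_neg hi2, if_pos (by omega), show n - 1 - r = 0 by omega]
        exact hQ 0 (by omega)
  · intro j hj
    simp only [blow, LinearMap.sum_apply] at hj
    obtain ⟨r, hr, hj⟩ := Finset.mem_biUnion.1 (Finsupp.support_finsetSum hj)
    obtain ⟨i, hi, rfl⟩ := sp_support hj
    have h1 := hu i hi
    have h2 := mem_range.1 hr
    have : (i + 1) * n ≤ 2 * M * n := Nat.mul_le_mul_right _ h1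
    rw [add_mul] at this
    omega

end Vale.Agent.P125
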