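import Mathlib
import Vale.Agent.P125.Nest

namespace Vale.Agent.P125

open Finset

lemma slot_lt {m : ℕ → ℕ} (hm : StrictMono m) {a c i1 i2 : ℕ} {b b' : Bool}
    (h1 : a ≤ m i1 ∧ (b = false → a < m i1)) (h2 : m i2 ≤ c ∧ (b' = false → m i2 < c))
    (h3 : i1 ≤ i2) (h4 : b = true → b' = true → i1 < i2) : a < c := by
  have h5 := hm.monotone h3
  cases b with
  | false => have := h1.2 rfl; omega
  | true =>
    cases b' with
    | false => have := h2.2 rfl; omega
    | true => have := hm (h4 rfl rfl); omega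

theorem core (N : Seminorm ℝ V) (hIS : IS N) {p C : ℝ} (hp : 0 < p) (hC : 0 ≤ C)
    (hMT : MT N p C) (n : ℕ) (hn : 1 ≤ n) (hblow : ∀ a, n * N a ≤ N (blow n a)) (u : V)
    (hu0 : 0 < N u) (hu : N (u + sp (fun i => i + 1) u) ≤ N u / (2 * (4 * n + 1))) :
    1 / 2 * ((n : ℝ) / 2) ^ p ≤ C * n * 2 ^ p := by
  classical
  have hn' : (1 : ℝ) ≤ n := by exact_mod_cast hn
  obtain ⟨M, hM⟩ : ∃ M, ∀ i ∈ u.support, i < 2 * M :=
    ⟨u.support.sup id + 1, fun i hi => by
      have : i ≤ u.support.sup id := Finset.le_sup (f := id) hi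
      omega⟩
  obtain ⟨r, hr⟩ : ∃ r, r = 2 * n := ⟨_, rfl⟩
  let μ : Fin r → ℕ → ℕ := fun i a => 2 * (r * (a / 2) + i) + a % 2
  have μ0 : ∀ i k, μ i (2 * k) = 2 * (r * k + i) := by
    intro i k
    simp only [μ]
    rw [show 2 * k / 2 = k by omega, show 2 * k % 2 = 0 by omega, add_zero]
  have μ1 : ∀ i k, μ i (2 * k + 1) = 2 * (r * k + i) + 1 := by
    intro i k
    simp only [μ]
    rw [show (2 * k + 1) / 2 = k by omega, show (2 * k + 1) % 2 = 1 by omega]
  have hμ : ∀ i, StrictMono (μ i) := by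
    intro i
    refine strictMono_nat_of_lt_succ fun a => ?_
    obtain ⟨k, rfl | rfl⟩ := Nat.even_or_odd' a
    · rw [μ0, μ1]; omega
    · rw [show 2 * k + 1 + 1 = 2 * (k + 1) by ring, μ0, μ1, mul_add r]; omega
  obtain ⟨S, i1, i2, i3, σ, G, m, f, h1, h2, h3⟩ := pingpong r (M + 2 * n + 1) (1 / (4 * n))
    (by positivity) (fun i mm => sp (fun a => mm (μ i a)) u)
  let τ : Fin r × Bool → Equiv.Perm S := fun s => if s.2 then σ s.1 else (σ s.1).symm
  let bar : Fin r × Bool ≃ Fin r × Bool :=
    ⟨fun s => (s.1, !s.2), fun s => (s.1, !s.2), fun s => by simp, fun s => by simp⟩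
  let good : Fin r × Bool → S → Prop := fun s x =>
    if s.2 then x ∈ G s.1 else (σ s.1).symm x ∈ G s.1
  let P : S → Fin r × Bool → ℕ → ℕ := fun x s a =>
    if s.2 then m x (μ s.1 a) else m ((σ s.1).symm x) (μ s.1 (a + 1))
  have : Nonempty (Fin r) := ⟨⟨0, by omega⟩⟩
  have hgood : ∀ s x, good s x → good (bar s) (τ s x) := by
    rintro ⟨i, b⟩ x
    cases b <;> simp [good, bar, τ]
  have hP : ∀ x s, StrictMono (P x s) := by
    rintro x ⟨i, b⟩
    cases b
    · intro a c hac
      exact h2 _ (hμ i (by omega))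
    · intro a c hac
      exact h2 _ (hμ i hac)
  have hrev : ∀ s x, ∃ α ≤ 1, ∀ a, P (τ s x) (bar s) (a + 1) = P x s (a + 2 * α) := by
    rintro ⟨i, b⟩ x
    cases b
    · exact ⟨0, by norm_num, fun a => by simp [P, τ, bar]⟩
    · exact ⟨1, le_rfl, fun a => by simp [P, τ, bar]⟩
  let ρ : Fin r × Bool → ℕ := fun s => 2 * s.1 + if s.2 then 0 else 1
  have hslot : ∀ y s, good s y → ∀ k < M + 2 * n + 1,
      (m y (2 * (r * k) + ρ s) ≤ P y s (2 * k) ∧
        (s.2 = false → m y (2 * (r * k) + ρ s) < P y s (2 * k))) ∧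
      (P y s (2 * k + 1) ≤ m y (2 * (r * k) + ρ s + 1) ∧
        (s.2 = false → P y s (2 * k + 1) < m y (2 * (r * k) + ρ s + 1))) := by
    rintro y ⟨i, b⟩ hg k hk
    cases b
    · have hg' : (σ i).symm y ∈ G i := by simpa [good] using hg
      obtain ⟨c1, c2⟩ := (h3 i _ hg').2 k hk
      rw [Equiv.apply_symm_apply] at c1 c2
      have e1 : P y (i, false) (2 * k) = m ((σ i).symm y) (2 * (r * k + i) + 1) := by
        simp [P, μ1]
      have e2 : P y (i, false) (2 * k + 1) = m ((σ i).symm y) (2 * (r * (k + 1) + i)) := by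
        rw [← μ0]; simp [P, mul_add, add_assoc]
      have e3 : 2 * (r * k) + ρ (i, false) = 2 * (r * k + i) + 1 := by simp [ρ]; ring
      rw [e1, e2, e3]
      exact ⟨⟨c1.le, fun _ => c1⟩, c2.le, fun _ => c2⟩
    · have e1 : P y (i, true) (2 * k) = m y (2 * (r * k + i)) := by simp [P, μ0]
      have e2 : P y (i, true) (2 * k + 1) = m y (2 * (r * k + i) + 1) := by simp [P, μ1]
      have e3 : 2 * (r * k) + ρ (i, true) = 2 * (r * k + i) := by simp [ρ]; ring
      rw [e1, e2, e3]
      simp
  have hρ : ∀ s, ρ s < 2 * r ∧ (s.2 = true → ρ s % 2 = 0) := by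
    rintro ⟨i, b⟩
    have := i.2
    cases b <;> simp [ρ] <;> omega
  have hρinj : ∀ s s', ρ s = ρ s' → s = s' := by
    rintro ⟨i, b⟩ ⟨j, c⟩
    cases b <;> cases c <;> simp [ρ, Fin.ext_iff] <;> omega
  have hnest : ∀ y s s', good s y → good s' y → s' ≠ s → ∃ lam ≤ 1, ∀ k, k + 1 < M + 2 * n + 1 →
      P y s (2 * k + 1) < P y s' (2 * (k + lam)) ∧
        P y s' (2 * (k + lam) + 1) < P y s (2 * k + 2) := by
    intro y s s' g1 g2 hne
    have a1 := hρ s
    have a2 := hρ s'
    have a3 : ρ s ≠ ρ s' := fun h => hne (hρinj _ _ h).symm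
    by_cases hlt : ρ s < ρ s'
    · refine ⟨0, by norm_num, fun k hk => ⟨?_, ?_⟩⟩
      · refine slot_lt (h2 y) (hslot y s g1 k (by omega)).2 (hslot y s' g2 k (by omega)).1
          (by omega) (fun b1 b2 => ?_)
        have := a1.2 b1; have := a2.2 b2; omega
      · refine slot_lt (h2 y) (hslot y s' g2 k (by omega)).2 (hslot y s g1 (k + 1) (by omega)).1
          (by rw [mul_add r]; omega) (fun b1 b2 => ?_)
        have := a1.2 b2; have := a2.2 b1; rw [mul_add r]; omega
    · refine ⟨1, le_rfl, fun k hk => ⟨?_, ?_⟩⟩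
      · refine slot_lt (h2 y) (hslot y s g1 k (by omega)).2 (hslot y s' g2 (k + 1) (by omega)).1
          (by rw [mul_add r]; omega) (fun b1 b2 => ?_)
        have := a1.2 b1; have := a2.2 b2; rw [mul_add r]; omega
      · refine slot_lt (h2 y) (hslot y s' g2 (k + 1) (by omega)).2
          (hslot y s g1 (k + 1) (by omega)).1 (by omega) (fun b1 b2 => ?_)
        have := a1.2 b2; have := a2.2 b1; omega
  set η := N u / (2 * (4 * n + 1)) with hη
  have hη0 : 0 ≤ η := by positivity
  have hstep : ∀ s x, good s x → N (f (τ s x) - f x - sp (P x s) u) ≤ η := by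
    rintro ⟨i, b⟩ x hg
    cases b
    · have hg' : (σ i).symm x ∈ G i := by simpa [good] using hg
      have c := (h3 i _ hg').1
      rw [Equiv.apply_symm_apply] at c
      have e : f (τ (i, false) x) - f x - sp (P x (i, false)) u =
          -sp (fun a => m ((σ i).symm x) (μ i a)) (u + sp (fun i => i + 1) u) := by
        rw [map_add, sp_sp]
        have e1 : τ (i, false) x = (σ i).symm x := by simp [τ]
        have e2 : P x (i, false) = fun a => m ((σ i).symm x) (μ i (a + 1)) := by
          funext a; simp [P]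
        rw [e1, e2]
        nth_rewrite 1 [c]
        abel
      rw [e, map_neg_eq_map, hIS _ (fun a c hac => h2 _ (hμ i hac))]
      exact hu
    · have hg' : x ∈ G i := by simpa [good] using hg
      have c := (h3 i _ hg').1
      have e1 : τ (i, true) x = σ i x := by simp [τ]
      have e2 : P x (i, true) = fun a => m x (μ i a) := by funext a; simp [P]
      rw [e1, e2, c]
      simpa using hη0
  have key := walk N (map_zero N) (apply_nonneg N) hp hC hMT τ bar good
    (by rintro ⟨i, b⟩ x; cases b <;> simp [τ, bar]) (by rintro ⟨i, b⟩; simp [bar]) hgood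
    (1 / (4 * n)) (by
      rintro ⟨i, b⟩
      have e : ∀ x, (if x ∈ G i then (0 : ℝ) else 1) = if x ∈ (G i)ᶜ then 1 else 0 := by
        intro x; by_cases hx : x ∈ G i <;> simp [hx]
      have e' : ∑ x, (if x ∈ G i then (0 : ℝ) else 1) ≤ 1 / (4 * n) * Fintype.card S := by
        simp only [e]
        rw [Finset.sum_ite_mem, Finset.univ_inter]
        simpa using h1 i
      cases b
      · refine le_trans (le_of_eq ?_) e'
        rw [← Equiv.sum_comp (σ i).symm (fun x => if x ∈ G i then (0 : ℝ) else 1)]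
        refine Finset.sum_congr rfl fun x _ => ?_
        by_cases hx : (σ i).symm x ∈ G i <;> simp [good, hx]
      · refine le_trans (le_of_eq ?_) e'
        refine Finset.sum_congr rfl fun x _ => ?_
        by_cases hx : x ∈ G i <;> simp [good, hx])
    f n hn (2 * N u) (n / 2 * N u) (by positivity) (by positivity) (by
      intro s x hg
      have e : f (τ s x) - f x = (f (τ s x) - f x - sp (P x s) u) + sp (P x s) u := by abel
      rw [e]
      refine (map_add_le_add N _ _).trans ?_
      rw [hIS _ (hP x s)]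
      have h5 := hstep s x hg
      have : η ≤ N u := by
        rw [hη]; exact div_le_self hu0.le (by linarith)
      linarith) (by
      intro x s0 l hl hok
      obtain ⟨s, l, rfl⟩ : ∃ s l', l = s :: l' := by
        cases l with
        | nil => simp at hl; omega
        | cons s l => exact ⟨s, l, rfl⟩
      simp only [List.length_cons] at hl
      obtain ⟨Q, -, q1, q2, q3⟩ := path N hIS u η hη0 hu τ bar good hgood P hP hrev
        (M + 2 * n + 1) hnest f hstep (2 * n) l x s s0 n hok (by omega) (by omega)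
      have q4 := assemble N hIS u M hM n (by omega) Q q1
        (fun j hj k hk => q2 j (by omega) k (by omega))
      have q5 := hblow u
      rw [hl] at q3
      have hl' : (l.length : ℝ) + 1 = n := by exact_mod_cast hl
      rw [hl'] at q3
      have q6 : ((2 : ℝ) * ((2 * n : ℕ) : ℝ) + 1) * η = N u / 2 := by
        rw [hη]; push_cast; field_simp; ring
      rw [q6] at q3
      have q7 := map_sub_le_add N (f (run (fun s x => τ s x) x (s :: l)) - f x)
        (f (run (fun s x => τ s x) x (s :: l)) - f x - ∑ j ∈ range n, sp (Q j) u)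
      rw [sub_sub_cancel, q4] at q7
      linarith)
  have hcard : (Fintype.card (Fin r × Bool) : ℝ) = 4 * n := by
    simp [hr]; ring
  rw [hcard, Real.mul_rpow (by positivity) hu0.le, Real.mul_rpow (by positivity) hu0.le] at key
  have e : 1 - (n : ℝ) * (1 / (4 * n) + 1 / (4 * n)) = 1 / 2 := by field_simp; ring
  rw [e] at key
  have hpos : 0 < N u ^ p := Real.rpow_pos_of_pos hu0 p
  refine le_of_mul_le_mul_right ?_ hpos
  linarith

end Vale.Agent.P125
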