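import Mathlib

namespace Vale.Agent.P125

open Filter Topology

/-- `X` has Markov type `p` (Ball): there is `K` such that for every stationary reversible
Markov chain on a finite set `S` (initial law `μ`, transition matrix `P`), every `f : S → X` and
every `t ≥ 1`, `E‖f(Z_t) - f(Z_0)‖^p ≤ K^p t E‖f(Z_1) - f(Z_0)‖^p`.
The law of `(Z_0, Z_t)` is `μ i * (P ^ t) i j`. -/
def HasMarkovType (X : Type*) [NormedAddCommGroup X] (p : ℝ) : Prop :=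
  ∃ K : ℝ, 0 ≤ K ∧
    ∀ (S : Type) [Fintype S] [DecidableEq S] (μ : S → ℝ) (P : Matrix S S ℝ),
      (∀ i, 0 ≤ μ i) → ∑ i, μ i = 1 → (∀ i j, 0 ≤ P i j) → (∀ i, ∑ j, P i j = 1) →
      (∀ i j, μ i * P i j = μ j * P j i) →
      ∀ (f : S → X) (t : ℕ), 1 ≤ t →
        ∑ i, ∑ j, μ i * (P ^ t) i j * ‖f j - f i‖ ^ p ≤
          K ^ p * t * ∑ i, ∑ j, μ i * P i j * ‖f j - f i‖ ^ p

/-- `N` is a norm on `X` equivalent to the given one. -/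
def IsEquivalentNorm {X : Type*} [NormedAddCommGroup X] [NormedSpace ℝ X]
    (N : Seminorm ℝ X) : Prop :=
  ∃ a b : ℝ, 0 < a ∧ 0 < b ∧ ∀ x, a * ‖x‖ ≤ N x ∧ N x ≤ b * ‖x‖

/-- `N` is uniformly convex. -/
def IsUniformlyConvex {X : Type*} [NormedAddCommGroup X] [NormedSpace ℝ X]
    (N : Seminorm ℝ X) : Prop :=
  ∀ ε : ℝ, 0 < ε → ε ≤ 2 → ∃ δ : ℝ, 0 < δ ∧ ∀ x y : X,
    N x ≤ 1 → N y ≤ 1 → ε ≤ N (x - y) → N ((1 / 2 : ℝ) • (x + y)) ≤ 1 - δ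

/-- The modulus of smoothness `ρ(τ)` of `N`. -/
noncomputable def smoothModulus {X : Type*} [NormedAddCommGroup X] [NormedSpace ℝ X]
    (N : Seminorm ℝ X) (τ : ℝ) : ℝ :=
  sSup {r : ℝ | ∃ x y : X, N x = 1 ∧ N y = 1 ∧ r = (N (x + τ • y) + N (x - τ • y)) / 2 - 1}

/-- `N` is uniformly smooth: `ρ(τ)/τ → 0` as `τ → 0⁺`. -/
def IsUniformlySmooth {X : Type*} [NormedAddCommGroup X] [NormedSpace ℝ X]
    (N : Seminorm ℝ X) : Prop :=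
  Tendsto (fun τ : ℝ => smoothModulus N τ / τ) (𝓝[>] 0) (𝓝 0)

end Vale.Agent.P125
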