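import Mathlib
import Vale.Agent.P125.Core

namespace Vale.Agent.P125

open Finset Filter Topology

/-- initial sums -/
noncomputable def head (k : ℕ) : V →ₗ[ℝ] ℝ :=
  Finsupp.linearCombination ℝ (fun i => if i < k then (1 : ℝ) else 0)

lemma head_single (k i : ℕ) (c : ℝ) : head k (Finsupp.single i c) = if i < k then c else 0 := by
  simp [head]

lemma MT.comp {N : V → ℝ} {p C : ℝ} (h : MT N p C) (T : V →ₗ[ℝ] V) :
    MT (fun a => N (T a)) p C := by
  intro S _ _ μ P h1 h2 h3 h4 h5 f t ht
  simpa only [map_sub] using h S μ P h1 h2 h3 h4 h5 (fun i => T (f i)) t ht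

lemma le_l1 (N : Seminorm ℝ V) (h : ∀ i, N (Finsupp.single i 1) ≤ 1) (a : V) :
    N a ≤ ∑ i ∈ a.support, |a i| := by
  conv_lhs => rw [← Finsupp.sum_single a, Finsupp.sum]
  refine (Finset.le_sum_of_subadditive N (map_zero N).le (map_add_le_add N) _ _).trans ?_
  refine Finset.sum_le_sum fun i _ => ?_
  have : Finsupp.single i (a i) = a i • Finsupp.single i (1 : ℝ) := by simp
  rw [this, map_smul_eq_mul, Real.norm_eq_abs]
  exact mul_le_of_le_one_right (abs_nonneg _) (h i)

lemma ulim {J : Type} (U : Ultrafilter J) (Nj : J → Seminorm ℝ V)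
    (h1 : ∀ j i, Nj j (Finsupp.single i 1) ≤ 1) {p C : ℝ} (hp : 0 ≤ p)
    (hMT : ∀ j, MT (Nj j) p C) :
    ∃ N : Seminorm ℝ V, (∀ a, Tendsto (fun j => Nj j a) U (𝓝 (N a))) ∧
      (∀ i, N (Finsupp.single i 1) ≤ 1) ∧ MT N p C := by
  have ex : ∀ a : V, ∃ c : ℝ, Tendsto (fun j => Nj j a) U (𝓝 c) := by
    intro a
    obtain ⟨c, -, hc⟩ := (isCompact_Icc (a := (0 : ℝ))
      (b := ∑ i ∈ a.support, |a i|)).ultrafilter_le_nhds (U.map (fun j => Nj j a)) (by
        rw [le_principal_iff]
        exact Filter.mem_map.2 (univ_mem' fun j => ⟨apply_nonneg _ _, le_l1 _ (h1 j) a⟩))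
    exact ⟨c, hc⟩
  choose F hF using ex
  refine ⟨Seminorm.of F ?_ ?_, hF, ?_, ?_⟩
  · intro x y
    exact le_of_tendsto_of_tendsto' (hF (x + y)) ((hF x).add (hF y))
      (fun j => map_add_le_add _ _ _)
  · intro c x
    refine tendsto_nhds_unique (hF (c • x)) ?_
    simp only [map_smul_eq_mul]
    exact (hF x).const_mul _
  · intro i
    exact le_of_tendsto' (hF _) (fun j => h1 j i)
  · intro S _ _ μ P k1 k2 k3 k4 k5 f t ht
    refine le_of_tendsto_of_tendsto' (b := (U : Filter J)) ?_ ?_
      (fun j => hMT j S μ P k1 k2 k3 k4 k5 f t ht)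
    · refine tendsto_finsetSum _ fun i _ => tendsto_finsetSum _ fun j _ => ?_
      exact ((hF _).rpow_const (Or.inr hp)).const_mul _
    · refine Tendsto.const_mul _ ?_
      refine tendsto_finsetSum _ fun i _ => tendsto_finsetSum _ fun j _ => ?_
      exact ((hF _).rpow_const (Or.inr hp)).const_mul _

/-- prepend -/
def cons (n : ℕ) (t : ℕ → ℕ) : ℕ → ℕ := fun j => Nat.casesOn j n t

/-- iterated ultrafilter -/
noncomputable def W : ℕ → Ultrafilter (ℕ → ℕ)
  | 0 => pure (fun _ => 0)
  | k + 1 => (hyperfilter ℕ).bind (fun n => (W k).map (cons n))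

lemma ev_W_succ (k : ℕ) (Φ : (ℕ → ℕ) → Prop) : (∀ᶠ t in (W (k + 1) : Filter (ℕ → ℕ)), Φ t) ↔
    ∀ᶠ n in (hyperfilter ℕ : Filter ℕ), ∀ᶠ t in (W k : Filter (ℕ → ℕ)), Φ (cons n t) := Iff.rfl

/-- restriction -/
def res (l : ℕ) (h : ℕ → ℕ) (t : ℕ → ℕ) : ℕ → ℕ := fun j => if j < l then t (h j) else 0

lemma marg (k : ℕ) : ∀ (l : ℕ) (h : ℕ → ℕ), (∀ i j, i < j → j < l → h i < h j) →
    (∀ j < l, h j < k) → ∀ Φ : (ℕ → ℕ) → Prop,
    (∀ᶠ t in (W k : Filter (ℕ → ℕ)), Φ (res l h t)) ↔
      ∀ᶠ t in (W l : Filter (ℕ → ℕ)), Φ (res l id t) := by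
  have zero : ∀ (k : ℕ) (h : ℕ → ℕ) (Φ : (ℕ → ℕ) → Prop),
      (∀ᶠ t in (W k : Filter (ℕ → ℕ)), Φ (res 0 h t)) ↔ Φ (fun _ => 0) := by
    intro k h Φ
    have : ∀ t, res 0 h t = fun _ => 0 := fun t => by funext j; simp [res]
    simp only [this]
    exact eventually_const
  induction k with
  | zero =>
    intro l h _ h2 Φ
    have : l = 0 := by
      by_contra hl
      have := h2 0 (by omega)
      omega
    subst this
    rw [zero, zero]
  | succ k ih =>
    intro l h h1 h2 Φ
    cases l with
    | zero => rw [zero, zero]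
    | succ l =>
      by_cases h0 : h 0 = 0
      · rw [ev_W_succ, ev_W_succ]
        have e1 : ∀ n t, res (l + 1) h (cons n t) = cons n (res l (fun j => h (j + 1) - 1) t) := by
          intro n t
          funext j
          cases j with
          | zero => simp [res, cons, h0]
          | succ j =>
            by_cases hj : j < l
            · have := h1 0 (j + 1) (by omega) (by omega)
              obtain ⟨d, hd⟩ : ∃ d, h (j + 1) = d + 1 := ⟨h (j + 1) - 1, by omega⟩
              simp [res, cons, hj, hd]
            · simp [res, cons, hj]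
        have e2 : ∀ n t, res (l + 1) id (cons n t) = cons n (res l id t) := by
          intro n t
          funext j
          cases j with
          | zero => simp [res, cons]
          | succ j => by_cases hj : j < l <;> simp [res, cons, hj]
        simp only [e1, e2]
        refine eventually_congr (Eventually.of_forall fun n => ?_)
        refine ih l _ ?_ ?_ (fun s => Φ (cons n s))
        · intro i j hij hj
          have := h1 (i + 1) (j + 1) (by omega) (by omega)
          have := h1 0 (i + 1) (by omega) (by omega)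
          omega
        · intro j hj
          have := h2 (j + 1) (by omega)
          have := h1 0 (j + 1) (by omega) (by omega)
          omega
      · rw [ev_W_succ]
        have hpos : ∀ j < l + 1, 0 < h j := by
          intro j hj
          rcases Nat.eq_zero_or_pos j with rfl | hj0
          · omega
          · have := h1 0 j hj0 hj; omega
        have e1 : ∀ n t, res (l + 1) h (cons n t) = res (l + 1) (fun j => h j - 1) t := by
          intro n t
          funext j
          by_cases hj : j < l + 1
          · have := hpos j hj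
            obtain ⟨d, hd⟩ : ∃ d, h j = d + 1 := ⟨h j - 1, by omega⟩
            simp [res, cons, hj, hd]
          · simp [res, hj]
        simp only [e1]
        rw [eventually_const]
        refine ih (l + 1) _ ?_ ?_ Φ
        · intro i j hij hj
          have := h1 i j hij hj
          have := hpos i (by omega)
          omega
        · intro j hj
          have := h2 j hj
          have := hpos j hj
          omega

lemma W_mono (k : ℕ) : ∀ b : ℕ, ∀ᶠ t in (W k : Filter (ℕ → ℕ)),
    (∀ i j, i < j → j < k → t i < t j) ∧ ∀ j < k, b ≤ t j := by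
  induction k with
  | zero => intro b; exact Eventually.of_forall fun t => ⟨by omega, by omega⟩
  | succ k ih =>
    intro b
    rw [ev_W_succ]
    have : ∀ᶠ n in (hyperfilter ℕ : Filter ℕ), b ≤ n :=
      Nat.hyperfilter_le_atTop (eventually_ge_atTop b)
    filter_upwards [this] with n hn
    filter_upwards [ih (n + 1)] with t ht
    constructor
    · intro i j hij hj
      cases j with
      | zero => omega
      | succ j =>
        cases i with
        | zero => exact ht.2 j (by omega)
        | succ i => exact ht.1 i j (by omega) (by omega)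
    · intro j hj
      cases j with
      | zero => exact hn
      | succ j =>
        have := ht.2 j (by omega)
        change b ≤ t j
        omega

/-- the spreading ultrafilter -/
noncomputable def WW : Ultrafilter (ℕ → ℕ) := (hyperfilter ℕ).bind W

lemma ev_WW (Φ : (ℕ → ℕ) → Prop) : (∀ᶠ t in (WW : Filter (ℕ → ℕ)), Φ t) ↔
    ∀ᶠ k in (hyperfilter ℕ : Filter ℕ), ∀ᶠ t in (W k : Filter (ℕ → ℕ)), Φ t := Iff.rfl

lemma WW_marg (l : ℕ) (h : ℕ → ℕ) (hh : StrictMono h) :
    Filter.map (res l h) WW = Filter.map (res l id) (W l) := by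
  ext s
  change (∀ᶠ t in (WW : Filter (ℕ → ℕ)), res l h t ∈ s) ↔
    ∀ᶠ t in (W l : Filter (ℕ → ℕ)), res l id t ∈ s
  rw [ev_WW, ← eventually_const (f := (hyperfilter ℕ : Filter ℕ))
    (p := ∀ᶠ t in (W l : Filter (ℕ → ℕ)), res l id t ∈ s)]
  refine eventually_congr ?_
  have : ∀ᶠ k in (hyperfilter ℕ : Filter ℕ), h l ≤ k :=
    Nat.hyperfilter_le_atTop (eventually_ge_atTop _)
  filter_upwards [this] with k hk
  exact marg k l h (fun i j hij _ => hh hij) (fun j hj => (hh hj).trans_le hk) (fun t => t ∈ s)

lemma WW_mono (l : ℕ) : ∀ᶠ t in (WW : Filter (ℕ → ℕ)), ∀ i j, i < j → j < l → t i < t j := by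
  rw [ev_WW]
  have : ∀ᶠ k in (hyperfilter ℕ : Filter ℕ), l ≤ k :=
    Nat.hyperfilter_le_atTop (eventually_ge_atTop _)
  filter_upwards [this] with k hk
  filter_upwards [W_mono k 0] with t ht i j hij hj
  exact ht.1 i j hij (by omega)

lemma supp_bound (a : V) : ∃ l, ∀ i ∈ a.support, i < l :=
  ⟨a.support.sup id + 1, fun i hi => by
    have : i ≤ a.support.sup id := Finset.le_sup (f := id) hi
    omega⟩

/-- spreading model -/
lemma spread (N : Seminorm ℝ V) (h1 : ∀ i, N (Finsupp.single i 1) ≤ 1) {p C θ : ℝ} (hp : 0 ≤ p)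
    (hMT : MT N p C) (hJ : ∀ a k, θ * |head k a| ≤ N a) :
    ∃ N' : Seminorm ℝ V, (∀ i, N' (Finsupp.single i 1) ≤ 1) ∧ MT N' p C ∧
      (∀ a k, θ * |head k a| ≤ N' a) ∧ IS N' := by
  obtain ⟨N', k1, k2, k3⟩ := ulim WW (fun t => N.comp (sp t))
    (fun t i => by simpa [sp_single] using h1 _) hp (fun t => hMT.comp (sp t))
  refine ⟨N', k2, k3, ?_, ?_⟩
  · intro a k
    obtain ⟨l, hl⟩ := supp_bound a
    refine ge_of_tendsto (k1 a) ?_
    filter_upwards [WW_mono (l + k + 1)] with t ht
    have : head k a = head (t k) (sp t a) := by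
      simp only [head, sp, Finsupp.lmapDomain_apply, Finsupp.linearCombination_mapDomain]
      simp only [Finsupp.linearCombination_apply, Finsupp.sum]
      refine Finset.sum_congr rfl fun i hi => ?_
      have hi' := hl i hi
      have : i < k ↔ t i < t k := by
        constructor
        · intro h; exact ht i k h (by omega)
        · intro h
          by_contra hc
          rcases Nat.eq_or_lt_of_le (not_lt.1 hc) with rfl | h'
          · omega
          · have := ht k i h' (by omega); omega
      simp [this]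
    rw [this]
    exact hJ _ _
  · intro h hh a
    obtain ⟨l, hl⟩ := supp_bound a
    have key : ∀ g : ℕ → ℕ, StrictMono g →
        Tendsto (fun t => N (sp t a)) (Filter.map (res l id) (W l)) (𝓝 (N' (sp g a))) := by
      intro g hg
      rw [← WW_marg l g hg, tendsto_map'_iff]
      refine (k1 (sp g a)).congr fun t => ?_
      simp only [Seminorm.comp_apply, Function.comp_apply, sp_sp]
      congr 1
      exact sp_congr fun i hi => by simp [res, hl i hi]
    have := tendsto_nhds_unique (key h hh) (key (fun i => i) strictMono_id)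
    rwa [sp_id] at this

lemma blow_le (N : Seminorm ℝ V) (h : IS N) (n : ℕ) (a : V) : N (blow n a) ≤ n * N a := by
  simp only [blow, LinearMap.sum_apply]
  refine (Finset.le_sum_of_subadditive N (map_zero N).le (map_add_le_add N) _ _).trans ?_
  refine (Finset.sum_le_sum (g := fun _ => N a) fun r hr => le_of_eq (h _ ?_ a)).trans (by simp)
  refine strictMono_nat_of_lt_succ fun x => ?_
  have := mem_range.1 hr
  rw [add_mul]; omega

lemma blow_sp (n : ℕ) (hn : 0 < n) (g : ℕ → ℕ) (hg : StrictMono g) :
    ∃ g' : ℕ → ℕ, StrictMono g' ∧ ∀ a, blow n (sp g a) = sp g' (blow n a) := by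
  refine ⟨fun x => g (x / n) * n + x % n, ?_, ?_⟩
  · intro x y hxy
    have h1 : x / n ≤ y / n := Nat.div_le_div_right hxy.le
    have hx := Nat.div_add_mod x n
    have hy := Nat.div_add_mod y n
    have hx' := Nat.mod_lt x hn
    rcases Nat.eq_or_lt_of_le h1 with h2 | h2
    · simp only [h2] at hx ⊢
      omega
    · have : (g (x / n) + 1) * n ≤ g (y / n) * n := Nat.mul_le_mul_right _ (hg h2)
      rw [add_mul] at this
      simp only
      omega
  · intro a
    simp only [blow, LinearMap.sum_apply, map_sum, sp_sp]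
    refine Finset.sum_congr rfl fun r hr => ?_
    have hr' := mem_range.1 hr
    congr 2
    funext i
    rw [add_comm (i * n), Nat.add_mul_div_right _ _ hn, Nat.div_eq_of_lt hr', zero_add,
      Nat.add_mul_mod_self_right, Nat.mod_eq_of_lt hr']

lemma head_blow (n k : ℕ) (a : V) : head (k * n) (blow n a) = n * head k a := by
  induction a using Finsupp.induction_linear with
  | zero => simp
  | add a b ha hb => simp only [map_add, ha, hb]; ring
  | single i c =>
    simp only [blow, LinearMap.sum_apply, map_sum, sp_single, head_single]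
    rw [Finset.sum_congr rfl (g := fun _ => if i < k then c else 0)]
    · simp
    · intro r hr
      have hr' := mem_range.1 hr
      have : i * n + r < k * n ↔ i < k := by
        constructor
        · intro h
          by_contra hc
          have : k * n ≤ i * n := Nat.mul_le_mul_right _ (by omega)
          omega
        · intro h
          have : (i + 1) * n ≤ k * n := Nat.mul_le_mul_right _ h
          rw [add_mul] at this
          omega
      simp [this]

/-- averaging -/
lemma average (N : Seminorm ℝ V) (h1 : ∀ i, N (Finsupp.single i 1) ≤ 1) {p C θ : ℝ} (hp : 0 ≤ p)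
    (hMT : MT N p C) (hJ : ∀ a k, θ * |head k a| ≤ N a) (hIS : IS N) (n : ℕ) (hn : 0 < n) :
    ∃ N' : Seminorm ℝ V, (∀ i, N' (Finsupp.single i 1) ≤ 1) ∧ MT N' p C ∧
      (∀ a k, θ * |head k a| ≤ N' a) ∧ IS N' ∧ ∀ a, n * N' a ≤ N' (blow n a) := by
  have hn' : (0 : ℝ) < n := by exact_mod_cast hn
  let A : V →ₗ[ℝ] V := (n : ℝ)⁻¹ • blow n
  have hA : ∀ a, N (A a) ≤ N a := by
    intro a
    simp only [A, LinearMap.smul_apply, map_smul_eq_mul, norm_inv, Real.norm_natCast]
    rw [inv_mul_le_iff₀ hn']
    exact blow_le N hIS n a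
  have hanti : ∀ a, Antitone (fun m : ℕ => N ((A ^ m) a)) := by
    intro a
    refine antitone_nat_of_succ_le fun m => ?_
    rw [pow_succ', Module.End.mul_apply]
    exact hA _
  obtain ⟨N', k1, k2, k3⟩ := ulim (hyperfilter ℕ) (fun m => N.comp (A ^ m))
    (fun m i => (hanti _ (Nat.zero_le m)).trans (by simpa using h1 i)) hp
    (fun m => hMT.comp (A ^ m))
  refine ⟨N', k2, k3, ?_, ?_, ?_⟩
  · intro a k
    refine ge_of_tendsto' (k1 a) fun m => ?_
    have : ∀ m : ℕ, head k a = head (k * n ^ m) ((A ^ m) a) := by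
      intro m
      induction m with
      | zero => simp
      | succ m ih =>
        rw [pow_succ' A, Module.End.mul_apply, pow_succ n, ← mul_assoc]
        simp only [A, LinearMap.smul_apply, map_smul, head_blow, smul_eq_mul] at ih ⊢
        rw [← ih]; field_simp
    rw [this m]
    exact hJ _ _
  · intro g hg a
    refine tendsto_nhds_unique (k1 _) ((k1 a).congr fun m => ?_)
    simp only [Seminorm.comp_apply]
    induction m generalizing g a with
    | zero => simpa using (hIS g hg a).symm
    | succ m ih =>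
      obtain ⟨g', hg', e⟩ := blow_sp n hn g hg
      rw [pow_succ, Module.End.mul_apply, Module.End.mul_apply]
      have : A (sp g a) = sp g' (A a) := by
        simp only [A, LinearMap.smul_apply, map_smul, e]
      rw [this]
      exact ih g' hg' _
  · intro a
    have e : blow n a = (n : ℝ) • A a := by
      simp only [A, LinearMap.smul_apply, smul_smul]
      rw [mul_inv_cancel₀ hn'.ne', one_smul]
    rw [e, map_smul_eq_mul, Real.norm_natCast]
    refine mul_le_mul_of_nonneg_left ?_ hn'.le
    refine ge_of_tendsto' (k1 (A a)) fun m => ?_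
    refine le_of_tendsto (k1 a) ?_
    have : ∀ᶠ j in (hyperfilter ℕ : Filter ℕ), m + 1 ≤ j :=
      Nat.hyperfilter_le_atTop (eventually_ge_atTop _)
    filter_upwards [this] with j hj
    have := hanti a hj
    simpa [pow_succ] using this

lemma exists_u (N : Seminorm ℝ V) (h1 : ∀ i, N (Finsupp.single i 1) ≤ 1) {θ : ℝ} (hθ : 0 < θ)
    (hJ : ∀ a k, θ * |head k a| ≤ N a) (hIS : IS N) (ε : ℝ) (hε : 0 < ε) :
    ∃ u, 0 < N u ∧ N (u + sp (fun i => i + 1) u) ≤ ε * N u := by
  let R : V →ₗ[ℝ] V := -sp (fun i => i + 1)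
  have hR : ∀ (m : ℕ) a, N ((R ^ m) a) = N a := by
    intro m a
    induction m with
    | zero => simp
    | succ m ih =>
      rw [pow_succ', Module.End.mul_apply]
      simp only [R, LinearMap.neg_apply, map_neg_eq_map]
      rw [hIS _ (strictMono_nat_of_lt_succ fun x => by omega)]
      exact ih
  have hG : ∀ (m : ℕ) a, N ((∑ i ∈ range m, R ^ i) a +
      sp (fun i => i + 1) ((∑ i ∈ range m, R ^ i) a)) ≤ 2 * N a := by
    intro m a
    have := LinearMap.congr_fun (mul_neg_geom_sum R m) a
    simp only [Module.End.mul_apply, LinearMap.sub_apply, Module.End.one_apply] at this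
    have e : (∑ i ∈ range m, R ^ i) a + sp (fun i => i + 1) ((∑ i ∈ range m, R ^ i) a) =
        a - (R ^ m) a := by
      rw [← this]; simp [R]
    rw [e]
    refine (map_sub_le_add N _ _).trans ?_
    rw [hR]; linarith
  have hcoord : ∀ (a : V) k, θ * |a k| ≤ 2 * N a := by
    intro a k
    have e : a k = head (k + 1) a - head k a := by
      induction a using Finsupp.induction_linear with
      | zero => simp
      | add a b ha hb => simp only [map_add, Finsupp.add_apply, ha, hb]; ring
      | single i c =>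
        simp only [head_single, Finsupp.single_apply]
        split_ifs <;> first | omega | simp
    have := hJ a (k + 1)
    have := hJ a k
    have := abs_sub (head (k + 1) a) (head k a)
    rw [e]
    nlinarith
  have hRs : ∀ (m i : ℕ) (c : ℝ), (R ^ m) (Finsupp.single i c) =
      Finsupp.single (i + m) ((-1) ^ m * c) := by
    intro m i c
    induction m with
    | zero => simp
    | succ m ih =>
      rw [pow_succ', Module.End.mul_apply, ih]
      simp only [R, LinearMap.neg_apply, sp_single, ← Finsupp.single_neg]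
      congr 1
      ring
  by_cases hb : ∃ m, 2 / ε ≤ N ((∑ i ∈ range m, R ^ i) (Finsupp.single 0 1))
  · obtain ⟨m, hm⟩ := hb
    refine ⟨_, lt_of_lt_of_le (by positivity) hm, (hG m _).trans ?_⟩
    rw [div_le_iff₀ hε] at hm
    have := h1 0
    linarith
  · push Not at hb
    obtain ⟨m, hm⟩ := exists_nat_gt (8 / (ε * ε * θ))
    have hm0 : (0 : ℝ) < m := lt_trans (by positivity) hm
    obtain ⟨m, rfl⟩ : ∃ k, m = k + 1 := ⟨m - 1, by
      have : 0 < m := by exact_mod_cast hm0
      omega⟩
    set u := (∑ i ∈ range (m + 1), R ^ i) ((∑ i ∈ range (m + 1), R ^ i) (Finsupp.single 0 1))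
      with hu
    have hum : |u m| = (m + 1 : ℕ) := by
      have : u m = (m + 1 : ℕ) * (-1) ^ m := by
        simp only [hu, LinearMap.sum_apply, map_sum, hRs, Finsupp.finsetSum_apply,
          Finsupp.single_apply]
        rw [Finset.sum_congr rfl (g := fun _ => (-1 : ℝ) ^ m)]
        · simp
        · intro i hi
          have hi' := mem_range.1 hi
          rw [Finset.sum_eq_single (m - i)]
          · rw [if_pos (by omega), mul_one, ← pow_add]
            congr 1; omega
          · intro b _ hb; rw [if_neg (by omega)]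
          · intro h; exact absurd (mem_range.2 (by omega)) h
      rw [this, abs_mul, abs_pow]; simp; positivity
    have h2 := hcoord u m
    rw [hum] at h2
    refine ⟨u, by nlinarith, (hG _ _).trans ?_⟩
    have h3 := hb (m + 1)
    rw [lt_div_iff₀ hε] at h3
    rw [div_lt_iff₀ (by positivity)] at hm
    nlinarith

/-- No space with Markov type `p > 1` contains arbitrarily long James sequences. -/
theorem no_james {p C θ : ℝ} (hp : 1 < p) (hC : 0 ≤ C) (hθ : 0 < θ) (Nn : ℕ → Seminorm ℝ V)
    (h1 : ∀ n i, Nn n (Finsupp.single i 1) ≤ 1) (hMT : ∀ n, MT (Nn n) p C)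
    (hJ : ∀ n (a : V), (∀ i ∈ a.support, i < n) → ∀ k, θ * |head k a| ≤ Nn n a) : False := by
  obtain ⟨N1, a1, a2, a3⟩ := ulim (hyperfilter ℕ) Nn h1 (by linarith) hMT
  have a4 : ∀ a k, θ * |head k a| ≤ N1 a := by
    intro a k
    obtain ⟨l, hl⟩ := supp_bound a
    refine ge_of_tendsto (a1 a) ?_
    have : ∀ᶠ j in (hyperfilter ℕ : Filter ℕ), l ≤ j :=
      Nat.hyperfilter_le_atTop (eventually_ge_atTop _)
    filter_upwards [this] with j hj
    exact hJ j a (fun i hi => (hl i hi).trans_le hj) k
  obtain ⟨N2, b1, b2, b3, b4⟩ := spread N1 a2 (by linarith) a3 a4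
  have ht : Tendsto (fun n : ℕ => (n : ℝ) ^ (p - 1)) atTop atTop :=
    (tendsto_rpow_atTop (by linarith)).comp tendsto_natCast_atTop_atTop
  obtain ⟨n, hn1, hn2⟩ :=
    ((ht.eventually_gt_atTop (2 * C * 2 ^ p * 2 ^ p)).and (eventually_ge_atTop 1)).exists
  obtain ⟨N3, c1, c2, c3, c4, c5⟩ := average N2 b1 (by linarith) b2 b3 b4 n (by omega)
  obtain ⟨u, d1, d2⟩ := exists_u N3 c1 hθ c3 c4 (1 / (2 * (4 * n + 1))) (by positivity)
  have key := core N3 c4 (by linarith) hC c2 n hn2 c5 u d1 (by
    refine d2.trans (le_of_eq ?_); ring)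
  have hn' : (0 : ℝ) < n := by exact_mod_cast hn2
  rw [Real.div_rpow hn'.le (by norm_num)] at key
  have e : (n : ℝ) ^ p = n ^ (p - 1) * n := by
    rw [Real.rpow_sub_one hn'.ne']; field_simp
  have h2 : (0 : ℝ) < 2 ^ p := by positivity
  rw [e, ← mul_div_assoc, div_le_iff₀ h2] at key
  nlinarith

end Vale.Agent.P125
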