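import Mathlib
import Vale.Agent.P125.Defs

namespace Vale.Agent.P125

open Finset Filter Topology Metric

variable {Z : Type*} [NormedAddCommGroup Z] [NormedSpace ℝ Z]

/-- convex, even, nonnegative, 1-Lipschitz functions -/
def Nice (G : Z → ℝ) : Prop :=
  (∀ x, 0 ≤ G x) ∧ G 0 ≤ 1 ∧ (∀ x y, G x ≤ G y + ‖x - y‖) ∧ (∀ x, G (-x) ≤ G x) ∧
    ∀ x y (a b : ℝ), 0 ≤ a → 0 ≤ b → a + b = 1 → G (a • x + b • y) ≤ a * G x + b * G y

lemma nice_infDist (C : Set Z) (hC : Convex ℝ C) (hs : ∀ x ∈ C, -x ∈ C)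
    (hb : ∀ x ∈ C, ‖x‖ ≤ 1) : Nice (fun x => infDist x C) := by
  rcases C.eq_empty_or_nonempty with rfl | hne
  · simp [Nice]
  refine ⟨fun x => infDist_nonneg, ?_, ?_, ?_, ?_⟩
  · obtain ⟨y, hy⟩ := hne
    refine (infDist_le_dist_of_mem hy).trans ?_
    simpa using hb y hy
  · intro x y
    simpa [dist_eq_norm] using infDist_le_infDist_add_dist (x := x) (y := y) (s := C)
  · intro x
    refine (le_infDist hne).2 fun y hy => (infDist_le_dist_of_mem (hs y hy)).trans ?_
    simp
  · intro x y a b ha hb hab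
    refine le_of_forall_pos_le_add fun e he => ?_
    obtain ⟨x', hx', hx⟩ := (infDist_lt_iff hne).1 (lt_add_of_pos_right (infDist x C) he)
    obtain ⟨y', hy', hy⟩ := (infDist_lt_iff hne).1 (lt_add_of_pos_right (infDist y C) he)
    refine (infDist_le_dist_of_mem (hC hx' hy' ha hb hab)).trans ?_
    rw [dist_eq_norm] at hx hy ⊢
    have e1 : a • x + b • y - (a • x' + b • y') = a • (x - x') + b • (y - y') := by
      simp only [smul_sub]; abel
    rw [e1]
    refine (norm_add_le _ _).trans ?_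
    rw [norm_smul, norm_smul, Real.norm_of_nonneg ha, Real.norm_of_nonneg hb]
    have h1 := mul_le_mul_of_nonneg_left hx.le ha
    have h2 := mul_le_mul_of_nonneg_left hy.le hb
    have : a * e + b * e = e := by rw [← add_mul, hab, one_mul]
    simp only
    nlinarith

lemma Nice.mid {G : Z → ℝ} (h : Nice G) (x y : Z) :
    G ((1 / 2 : ℝ) • (x + y)) ≤ (G x + G y) / 2 := by
  have := h.2.2.2.2 x y (1 / 2) (1 / 2) (by norm_num) (by norm_num) (by norm_num)
  rw [smul_add]
  linarith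

lemma gain (C : ℕ → Set Z) (hC : ∀ n, Convex ℝ (C n)) (hs : ∀ n, ∀ x ∈ C n, -x ∈ C n)
    (hb : ∀ n, ∀ x ∈ C n, ‖x‖ ≤ 1) (h0 : ∀ x, ‖x‖ ≤ 1 → x ∈ C 0) (ε : ℝ) (hε : 0 < ε)
    (hmid : ∀ n, ∀ y ∈ C n, ∀ z ∈ C n, ε ≤ ‖y - z‖ → (1 / 2 : ℝ) • (y + z) ∈ C (n + 1))
    (N : ℕ) (hN : C N = ∅) :
    ∃ G : Z → ℝ, Nice G ∧ ∃ γ > 0, ∀ x y, ‖x‖ ≤ 1 → ‖y‖ ≤ 1 → 2 * ε ≤ ‖x - y‖ →
      G ((1 / 2 : ℝ) • (x + y)) ≤ (G x + G y) / 2 - γ := by
  have hn := fun n => nice_infDist (C n) (hC n) (hs n) (hb n)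
  have hN1 : (0 : ℝ) < N + 1 := by positivity
  refine ⟨fun x => (∑ n ∈ range (N + 1), infDist x (C n)) / (N + 1), ⟨?_, ?_, ?_, ?_, ?_⟩,
    ε / (2 * 4 ^ N) / (N + 1), by positivity, ?_⟩
  · intro x
    exact div_nonneg (Finset.sum_nonneg fun n _ => infDist_nonneg) hN1.le
  · rw [div_le_one hN1]
    refine (Finset.sum_le_sum fun n _ => (hn n).2.1).trans ?_
    simp
  · intro x y
    rw [div_add' _ _ _ hN1.ne']
    refine div_le_div_of_nonneg_right ?_ hN1.le
    refine (Finset.sum_le_sum fun n _ => (hn n).2.2.1 x y).trans (le_of_eq ?_)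
    simp [Finset.sum_add_distrib]; ring
  · intro x
    exact div_le_div_of_nonneg_right (Finset.sum_le_sum fun n _ => (hn n).2.2.2.1 x) hN1.le
  · intro x y a b ha hb hab
    simp only [← mul_div_assoc, ← add_div]
    refine div_le_div_of_nonneg_right ?_ hN1.le
    refine (Finset.sum_le_sum fun n _ => (hn n).2.2.2.2 x y a b ha hb hab).trans (le_of_eq ?_)
    simp [Finset.sum_add_distrib, Finset.mul_sum]
  · intro x y hx hy hxy
    let γ : ℕ → ℝ := fun n => ε * 4 ^ n / (2 * 4 ^ N)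
    let Pr : ℕ → Prop := fun n => (∃ x' ∈ C n, dist x x' < γ n) ∧ (∃ y' ∈ C n, dist y y' < γ n)
    have p0 : Pr 0 := ⟨⟨x, h0 x hx, by simp only [γ, dist_self]; positivity⟩,
      ⟨y, h0 y hy, by simp only [γ, dist_self]; positivity⟩⟩
    have pN : ¬ Pr N := by
      rintro ⟨⟨x', hx', -⟩, -⟩
      rw [hN] at hx'; exact hx'
    obtain ⟨n, hnN, p1, p2⟩ : ∃ n < N, Pr n ∧ ¬ Pr (n + 1) := by
      by_contra hc
      push Not at hc
      have : ∀ n ≤ N, Pr n := by
        intro n
        induction n with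
        | zero => intro _; exact p0
        | succ n ih => intro h; exact hc n (by omega) (ih (by omega))
      exact pN (this N le_rfl)
    obtain ⟨⟨x', hx', hx2⟩, ⟨y', hy', hy2⟩⟩ := p1
    have hγ : γ n ≤ ε / 2 := by
      simp only [γ]
      rw [div_le_div_iff₀ (by positivity) (by norm_num)]
      have : (4 : ℝ) ^ n ≤ 4 ^ N := pow_le_pow_right₀ (by norm_num) hnN.le
      nlinarith
    have hγ0 : ε / (2 * 4 ^ N) ≤ γ n := by
      simp only [γ]
      refine div_le_div_of_nonneg_right ?_ (by positivity)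
      exact le_mul_of_one_le_right hε.le (one_le_pow₀ (by norm_num))
    have hγ4 : γ (n + 1) = 4 * γ n := by simp only [γ, pow_succ]; ring
    rw [dist_eq_norm] at hx2 hy2
    have hsep : ε ≤ ‖x' - y'‖ := by
      have e : x - y = (x' - y') + (x - x') - (y - y') := by abel
      have := norm_sub_le ((x' - y') + (x - x')) (y - y')
      have := norm_add_le (x' - y') (x - x')
      rw [← e] at *
      linarith
    have hm := hmid n x' hx' y' hy' hsep
    have d1 : infDist ((1 / 2 : ℝ) • (x + y)) (C (n + 1)) ≤ γ n := by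
      refine (infDist_le_dist_of_mem hm).trans ?_
      rw [dist_eq_norm, ← smul_sub, norm_smul,
        show x + y - (x' + y') = (x - x') + (y - y') by abel]
      have := norm_add_le (x - x') (y - y')
      norm_num
      linarith
    have d2 : 4 * γ n ≤ infDist x (C (n + 1)) + infDist y (C (n + 1)) := by
      rw [← hγ4]
      by_contra hc
      push Not at hc
      have a1 : 0 ≤ infDist x (C (n + 1)) := infDist_nonneg
      have a2 : 0 ≤ infDist y (C (n + 1)) := infDist_nonneg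
      exact p2 ⟨(infDist_lt_iff ⟨_, hm⟩).1 (by linarith), (infDist_lt_iff ⟨_, hm⟩).1 (by linarith)⟩
    have key : ∑ j ∈ range (N + 1), infDist ((1 / 2 : ℝ) • (x + y)) (C j) ≤
        ∑ j ∈ range (N + 1), ((infDist x (C j) + infDist y (C j)) / 2 -
          if j = n + 1 then ε / (2 * 4 ^ N) else 0) := by
      refine Finset.sum_le_sum fun j _ => ?_
      by_cases hj : j = n + 1
      · rw [if_pos hj, hj]; linarith
      · rw [if_neg hj, sub_zero]; exact (hn j).mid x y
    rw [Finset.sum_sub_distrib, Finset.sum_ite_eq', if_pos (mem_range.2 (by omega)),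
      ← Finset.sum_div, Finset.sum_add_distrib] at key
    simp only
    rw [← add_div, div_right_comm, ← sub_div]
    exact div_le_div_of_nonneg_right key hN1.le

theorem renorm (h : ∀ ε > 0, ∃ G : Z → ℝ, Nice G ∧ ∃ γ > 0, ∀ x y, ‖x‖ ≤ 1 → ‖y‖ ≤ 1 →
      ε ≤ ‖x - y‖ → G ((1 / 2 : ℝ) • (x + y)) ≤ (G x + G y) / 2 - γ) :
    ∃ N : Seminorm ℝ Z, IsEquivalentNorm N ∧ IsUniformlyConvex N := by
  choose G hG γ hγ hgain using fun k : ℕ => h (1 / (k + 1)) (by positivity)
  let w : ℕ → ℝ := fun k => (1 / 2) ^ k / 16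
  have hw0 : ∀ k, 0 < w k := fun k => by positivity
  have hw : HasSum w (1 / 8) := by
    have := hasSum_geometric_two.div_const 16
    norm_num at this ⊢
    exact this
  have hGb : ∀ k x, G k x ≤ 1 + ‖x‖ := by
    intro k x
    have := (hG k).2.2.1 x 0
    have := (hG k).2.1
    rw [sub_zero] at *
    linarith
  have hsum : ∀ x, Summable (fun k => w k * G k x) := by
    intro x
    refine Summable.of_nonneg_of_le (fun k => mul_nonneg (hw0 k).le ((hG k).1 x))
      (fun k => mul_le_mul_of_nonneg_left (hGb k x) (hw0 k).le) (hw.summable.mul_right _)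
  let T : Z → ℝ := fun x => ∑' k, w k * G k x
  have hT : ∀ x, HasSum (fun k => w k * G k x) (T x) := fun x => (hsum x).hasSum
  have T0 : ∀ x, 0 ≤ T x := fun x => tsum_nonneg fun k => mul_nonneg (hw0 k).le ((hG k).1 x)
  have T1 : ∀ x, T x ≤ 1 / 8 * (1 + ‖x‖) := fun x =>
    hasSum_le (fun k => mul_le_mul_of_nonneg_left (hGb k x) (hw0 k).le) (hT x) (hw.mul_right _)
  have T2 : ∀ x y, T x ≤ T y + 1 / 8 * ‖x - y‖ := fun x y =>
    hasSum_le (fun k => by
      have := mul_le_mul_of_nonneg_left ((hG k).2.2.1 x y) (hw0 k).le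
      linarith) (hT x) ((hT y).add (hw.mul_right _))
  have T3 : ∀ x, T (-x) ≤ T x := fun x =>
    hasSum_le (fun k => mul_le_mul_of_nonneg_left ((hG k).2.2.2.1 x) (hw0 k).le) (hT _) (hT x)
  have T4 : ∀ x y (a b : ℝ), 0 ≤ a → 0 ≤ b → a + b = 1 →
      T (a • x + b • y) ≤ a * T x + b * T y := fun x y a b ha hb hab =>
    hasSum_le (fun k => by
      have := mul_le_mul_of_nonneg_left ((hG k).2.2.2.2 x y a b ha hb hab) (hw0 k).le
      linarith) (hT _) (((hT x).mul_left a).add ((hT y).mul_left b))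
  have T5 : ∀ (k : ℕ) x y, ‖x‖ ≤ 1 → ‖y‖ ≤ 1 → 1 / ((k : ℝ) + 1) ≤ ‖x - y‖ →
      T ((1 / 2 : ℝ) • (x + y)) ≤ (T x + T y) / 2 - w k * γ k := fun k x y hx hy hxy =>
    hasSum_le (fun j => by
      by_cases hj : j = k
      · subst hj
        have := mul_le_mul_of_nonneg_left (hgain j x y hx hy hxy) (hw0 j).le
        simp only [if_true]
        linarith
      · have := mul_le_mul_of_nonneg_left ((hG j).mid x y) (hw0 j).le
        simp only [if_neg hj]
        linarith) (hT _) ((((hT x).add (hT y)).div_const 2).sub (hasSum_ite_eq k (w k * γ k)))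
  let D : Set Z := {x | ‖x‖ + T x ≤ 1 / 2}
  have D1 : Convex ℝ D := by
    intro x hx y hy a b ha hb hab
    simp only [D, Set.mem_ofPred_eq] at hx hy ⊢
    have h1 := T4 x y a b ha hb hab
    have h2 := norm_add_le (a • x) (b • y)
    rw [norm_smul, norm_smul, Real.norm_of_nonneg ha, Real.norm_of_nonneg hb] at h2
    have h3 := mul_le_mul_of_nonneg_left hx ha
    have h4 := mul_le_mul_of_nonneg_left hy hb
    linarith
  have D2 : Balanced ℝ D := by
    refine (balanced_iff_neg_mem D1).2 fun x hx => ?_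
    simp only [D, Set.mem_ofPred_eq, norm_neg] at hx ⊢
    have := T3 x
    linarith
  have D3 : ball (0 : Z) (1 / 4) ⊆ D := by
    intro x hx
    simp only [D, Set.mem_ofPred_eq, mem_ball_zero_iff] at hx ⊢
    have := T1 x
    linarith
  have D4 : D ⊆ closedBall (0 : Z) (1 / 2) := by
    intro x hx
    simp only [D, Set.mem_ofPred_eq, mem_closedBall_zero_iff] at hx ⊢
    have := T0 x
    linarith
  have D5 : D ∈ 𝓝 (0 : Z) := mem_of_superset (ball_mem_nhds _ (by norm_num)) D3
  have D6 : Absorbent ℝ D := absorbent_nhds_zero D5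
  have D7 : IsClosed D := by
    have : Continuous T := by
      refine (LipschitzWith.of_le_add_mul (f := T) ⟨1 / 8, by norm_num⟩ fun x y => ?_).continuous
      rw [dist_eq_norm]; exact T2 x y
    exact isClosed_le (continuous_norm.add this) continuous_const
  have g1 : ∀ x, gauge D x ≤ 4 * ‖x‖ := fun x => by
    have := mul_gauge_le_norm (x := x) D3
    linarith
  refine ⟨gaugeSeminorm D2 D1 D6, ⟨2, 4, by norm_num, by norm_num, fun x => ⟨?_, g1 x⟩⟩, ?_⟩
  · have := le_gauge_of_subset_closedBall (x := x) D6 (by norm_num) D4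
    change 2 * ‖x‖ ≤ gauge D x
    linarith
  · intro ε hε _
    obtain ⟨k, hk⟩ := exists_nat_one_div_lt (show 0 < ε / 4 by positivity)
    have hc : 0 < w k * γ k := mul_pos (hw0 k) (hγ k)
    set c := w k * γ k with hcdef
    refine ⟨c / (1 + c), by positivity, fun x y hx hy hxy => ?_⟩
    change gauge D x ≤ 1 at hx
    change gauge D y ≤ 1 at hy
    change ε ≤ gauge D (x - y) at hxy
    change gauge D ((1 / 2 : ℝ) • (x + y)) ≤ _
    rw [gauge_le_one_iff_mem_closure D1 D5, D7.closure_eq] at hx hy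
    have hx1 := mem_closedBall_zero_iff.1 (D4 hx)
    have hy1 := mem_closedBall_zero_iff.1 (D4 hy)
    have h5 := T5 k x y (by linarith) (by linarith) (by have := g1 (x - y); linarith)
    have h6 : ‖(1 / 2 : ℝ) • (x + y)‖ ≤ (‖x‖ + ‖y‖) / 2 := by
      rw [norm_smul]
      have := norm_add_le x y
      norm_num
      linarith
    set m := (1 / 2 : ℝ) • (x + y) with hm
    have h7 : (1 + c) • m ∈ D := by
      simp only [D, Set.mem_ofPred_eq] at hx hy ⊢
      have h8 := T2 ((1 + c) • m) m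
      have e : (1 + c) • m - m = c • m := by rw [add_smul, one_smul]; abel
      rw [e, norm_smul, Real.norm_of_nonneg hc.le] at h8
      rw [norm_smul, Real.norm_of_nonneg (by positivity)]
      have h9 : c * ‖m‖ ≤ c * (1 / 2) := mul_le_mul_of_nonneg_left (by linarith) hc.le
      nlinarith
    have h8 : gauge D m ≤ (1 + c)⁻¹ := by
      refine gauge_le_of_mem (by positivity) ?_
      exact ⟨_, h7, by simp only [smul_smul]; rw [inv_mul_cancel₀ (by positivity), one_smul]⟩
    refine h8.trans (le_of_eq ?_)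
    field_simp
    ring

end Vale.Agent.P125
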