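import Mathlib
import Vale.Agent.P125.Limit
import Vale.Agent.P125.Renorm

namespace Vale.Agent.P125

open Finset Filter Topology

section
variable {Z Y : Type*} [NormedAddCommGroup Z] [NormedSpace ℝ Z] [NormedAddCommGroup Y]
  [NormedSpace ℝ Y] (B : Z →ₗ[ℝ] Y →ₗ[ℝ] ℝ)

/-- `z` is the root of a martingale tree in the unit ball with `n` big jumps -/
def Tr (ε : ℝ) (n : ℕ) (z : Z) : Prop :=
  ∃ (Ω : Type) (_ : Fintype Ω) (w : Ω → ℝ) (M : Ω → ℕ → Z) (g : Ω → ℕ → Y),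
    (∀ ω, 0 ≤ w ω) ∧ ∑ ω, w ω = 1 ∧ (∀ ω i, ‖M ω i‖ ≤ 1) ∧ (∀ ω i, ‖g ω i‖ ≤ 1) ∧
    (∀ i, ∑ ω, w ω • M ω i = z) ∧ (∀ k, ∑ ω, w ω • g ω k = 0) ∧
    ∀ i k, k < n → ∑ ω, w ω * B (M ω i) (g ω k) = if k ≤ i then ε / 4 else 0

lemma Tr_zero (ε : ℝ) (z : Z) (hz : ‖z‖ ≤ 1) : Tr B ε 0 z :=
  ⟨Unit, inferInstance, fun _ => 1, fun _ _ => z, fun _ _ => 0, by simp, by simp, by simp [hz],
    by simp, by simp, by simp, by simp⟩

lemma Tr_norm {ε : ℝ} {n : ℕ} {z : Z} (h : Tr B ε n z) : ‖z‖ ≤ 1 := by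
  obtain ⟨Ω, _, w, M, g, h1, h2, h3, -, h5, -⟩ := h
  rw [← h5 0, ← h2]
  refine (norm_sum_le _ _).trans (Finset.sum_le_sum fun ω _ => ?_)
  rw [norm_smul, Real.norm_of_nonneg (h1 ω)]
  exact mul_le_of_le_one_right (h1 ω) (h3 ω 0)

lemma Tr_neg {ε : ℝ} {n : ℕ} {z : Z} (h : Tr B ε n z) : Tr B ε n (-z) := by
  obtain ⟨Ω, i1, w, M, g, h1, h2, h3, h4, h5, h6, h7⟩ := h
  refine ⟨Ω, i1, w, fun ω i => -M ω i, fun ω i => -g ω i, h1, h2, by simpa using h3,
    by simpa using h4, fun i => by simp [← h5 i], fun k => by simp [h6 k], ?_⟩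
  intro i k hk
  simpa using h7 i k hk

lemma Tr_convex (ε : ℝ) (n : ℕ) : Convex ℝ {z | Tr B ε n z} := by
  rintro y ⟨Ω, i1, w, M, g, h1, h2, h3, h4, h5, h6, h7⟩
    z ⟨Ω', i2, w', M', g', k1, k2, k3, k4, k5, k6, k7⟩ a b ha hb hab
  refine ⟨Ω ⊕ Ω', inferInstance, Sum.elim (fun ω => a * w ω) (fun ω => b * w' ω),
    Sum.elim M M', Sum.elim g g', ?_, ?_, ?_, ?_, ?_, ?_, ?_⟩
  · rintro (ω | ω)
    · exact mul_nonneg ha (h1 ω)
    · exact mul_nonneg hb (k1 ω)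
  · simp [Fintype.sum_sum_type, ← Finset.mul_sum, h2, k2, hab]
  · rintro (ω | ω) i
    · exact h3 ω i
    · exact k3 ω i
  · rintro (ω | ω) i
    · exact h4 ω i
    · exact k4 ω i
  · intro i
    simp [Fintype.sum_sum_type, mul_smul, ← Finset.smul_sum, h5, k5]
  · intro i
    simp [Fintype.sum_sum_type, mul_smul, ← Finset.smul_sum, h6, k6]
  · intro i k hk
    simp only [Fintype.sum_sum_type, Sum.elim_inl, Sum.elim_inr, mul_assoc, ← Finset.mul_sum,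
      h7 i k hk, k7 i k hk]
    rw [← add_mul, hab, one_mul]

lemma Tr_mid {ε : ℝ} {n : ℕ} {y z : Z} (hy : Tr B ε n y) (hz : Tr B ε n z) (x : Y)
    (hx : ‖x‖ ≤ 1) (hB : B (y - z) x = ε / 2) : Tr B ε (n + 1) ((1 / 2 : ℝ) • (y + z)) := by
  have ny := Tr_norm B hy
  have nz := Tr_norm B hz
  obtain ⟨Ω, i1, w, M, g, h1, h2, h3, h4, h5, h6, h7⟩ := hy
  obtain ⟨Ω', i2, w', M', g', k1, k2, k3, k4, k5, k6, k7⟩ := hz
  let M1 : Ω → ℕ → Z := fun ω i => Nat.casesOn i y (M ω)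
  let M2 : Ω' → ℕ → Z := fun ω i => Nat.casesOn i z (M' ω)
  have m1 : ∀ i, ∑ ω, w ω • M1 ω i = y := by
    intro i
    cases i with
    | zero => simp only [M1, Nat.rec_zero]; rw [← Finset.sum_smul, h2, one_smul]
    | succ i => exact h5 i
  have m2 : ∀ i, ∑ ω, w' ω • M2 ω i = z := by
    intro i
    cases i with
    | zero => simp only [M2, Nat.rec_zero]; rw [← Finset.sum_smul, k2, one_smul]
    | succ i => exact k5 i
  refine ⟨Ω ⊕ Ω', inferInstance, Sum.elim (fun ω => (1 / 2) * w ω) (fun ω => (1 / 2) * w' ω),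
    Sum.elim M1 M2, Sum.elim (fun ω i => Nat.casesOn i x (g ω))
      (fun ω i => Nat.casesOn i (-x) (g' ω)), ?_, ?_, ?_, ?_, ?_, ?_, ?_⟩
  · rintro (ω | ω)
    · exact mul_nonneg (by norm_num) (h1 ω)
    · exact mul_nonneg (by norm_num) (k1 ω)
  · simp only [Fintype.sum_sum_type, Sum.elim_inl, Sum.elim_inr, ← Finset.mul_sum, h2, k2]
    norm_num
  · rintro (ω | ω) (_ | i)
    · exact ny
    · exact h3 ω i
    · exact nz
    · exact k3 ω i
  · rintro (ω | ω) (_ | i)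
    · exact hx
    · exact h4 ω i
    · simpa using hx
    · exact k4 ω i
  · intro i
    simp only [Fintype.sum_sum_type, Sum.elim_inl, Sum.elim_inr, mul_smul, ← Finset.smul_sum,
      m1, m2, smul_add]
  · intro i
    simp only [Fintype.sum_sum_type, Sum.elim_inl, Sum.elim_inr, mul_smul, ← Finset.smul_sum]
    cases i with
    | zero =>
      simp only [Nat.rec_zero]
      rw [← Finset.sum_smul, ← Finset.sum_smul, h2, k2]; simp
    | succ i =>
      change (1 / 2 : ℝ) • ∑ ω, w ω • g ω i + (1 / 2 : ℝ) • ∑ ω, w' ω • g' ω i = 0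
      simp [h6, k6]
  · intro i k hk
    simp only [Fintype.sum_sum_type, Sum.elim_inl, Sum.elim_inr, mul_assoc, ← Finset.mul_sum]
    cases k with
    | zero =>
      simp only [Nat.rec_zero]
      have e1 : ∑ ω, w ω * B (M1 ω i) x = B y x := by
        rw [← m1 i]; simp [map_sum, LinearMap.sum_apply]
      have e2 : ∑ ω, w' ω * B (M2 ω i) (-x) = -B z x := by
        rw [← m2 i]; simp [map_sum, LinearMap.sum_apply]
      rw [e1, e2, if_pos (Nat.zero_le _)]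
      simp only [map_sub, LinearMap.sub_apply] at hB
      linarith
    | succ k =>
      cases i with
      | zero =>
        change 1 / 2 * ∑ ω, w ω * B y (g ω k) + 1 / 2 * ∑ ω, w' ω * B z (g' ω k) = _
        have e1 : ∑ ω, w ω * B y (g ω k) = B y (∑ ω, w ω • g ω k) := by simp [map_sum]
        have e2 : ∑ ω, w' ω * B z (g' ω k) = B z (∑ ω, w' ω • g' ω k) := by simp [map_sum]
        rw [e1, e2, h6, k6]; simp
      | succ i =>
        change 1 / 2 * ∑ ω, w ω * B (M ω i) (g ω k) +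
          1 / 2 * ∑ ω, w' ω * B (M' ω i) (g' ω k) = _
        rw [h7 i k (by omega), k7 i k (by omega)]
        simp only [Nat.add_le_add_iff_right]
        ring

theorem renorm_of_Tr (hB : ∀ (z : Z) (ε : ℝ), 0 < ε → ε ≤ ‖z‖ → ∃ x, ‖x‖ ≤ 1 ∧ B z x = ε / 2)
    (h : ∀ ε > 0, ∃ n, ∀ z, ¬ Tr B ε n z) :
    ∃ N : Seminorm ℝ Z, IsEquivalentNorm N ∧ IsUniformlyConvex N := by
  refine renorm fun ε hε => ?_
  obtain ⟨n, hn⟩ := h (ε / 2) (by positivity)
  have := gain (fun n => {z | Tr B (ε / 2) n z}) (Tr_convex B _) (fun n x hx => Tr_neg B hx)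
    (fun n x hx => Tr_norm B hx) (fun x hx => Tr_zero B _ x hx) (ε / 2) (by positivity)
    (fun n y hy z hz hyz => by
      obtain ⟨x, hx1, hx2⟩ := hB (y - z) (ε / 2) (by positivity) hyz
      exact Tr_mid B hy hz x hx1 hx2) n (Set.eq_empty_of_forall_notMem hn)
  simpa only [mul_div_cancel₀ ε (two_ne_zero)] using this

end

lemma lp_seminorm {X : Type*} [NormedAddCommGroup X] [NormedSpace ℝ X] {p C : ℝ} (hp : 1 ≤ p)
    (hMT : MT (fun x : X => ‖x‖) p C) {Ω : Type} [Fintype Ω] (w : Ω → ℝ) (y : Ω → ℕ → X)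
    (h1 : ∀ ω, 0 ≤ w ω) (h2 : ∑ ω, w ω = 1) (h3 : ∀ ω i, ‖y ω i‖ ≤ 1) :
    ∃ N : Seminorm ℝ V, (∀ i, N (Finsupp.single i 1) ≤ 1) ∧ MT N p C ∧
      ∀ a, ∑ ω, w ω * ‖Finsupp.linearCombination ℝ (y ω) a‖ ≤ N a := by
  have hp0 : 0 < p := by linarith
  let T : Ω → V →ₗ[ℝ] X := fun ω => Finsupp.linearCombination ℝ (y ω)
  let F : V → ℝ := fun a => (∑ ω, w ω * ‖T ω a‖ ^ p) ^ (1 / p)
  have hnn : ∀ a, 0 ≤ ∑ ω, w ω * ‖T ω a‖ ^ p := fun a =>
    Finset.sum_nonneg fun ω _ => mul_nonneg (h1 ω) (by positivity)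
  have hF : ∀ a, F a ^ p = ∑ ω, w ω * ‖T ω a‖ ^ p := fun a => by
    simp only [F, one_div]
    exact Real.rpow_inv_rpow (hnn a) hp0.ne'
  have hw : ∀ ω (t : ℝ), 0 ≤ t → w ω * t ^ p = (w ω ^ (1 / p) * t) ^ p := by
    intro ω t ht
    rw [Real.mul_rpow (Real.rpow_nonneg (h1 ω) _) ht, one_div, Real.rpow_inv_rpow (h1 ω) hp0.ne']
  refine ⟨Seminorm.of F ?_ ?_, ?_, ?_, ?_⟩
  · intro a b
    have := Real.Lp_add_le_of_nonneg (s := univ) (f := fun ω => w ω ^ (1 / p) * ‖T ω a‖)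
      (g := fun ω => w ω ^ (1 / p) * ‖T ω b‖) hp
      (fun ω _ => mul_nonneg (Real.rpow_nonneg (h1 ω) _) (norm_nonneg _))
      (fun ω _ => mul_nonneg (Real.rpow_nonneg (h1 ω) _) (norm_nonneg _))
    simp only [F, hw _ _ (norm_nonneg _)]
    refine le_trans ?_ this
    refine Real.rpow_le_rpow (Finset.sum_nonneg fun ω _ => Real.rpow_nonneg
      (mul_nonneg (Real.rpow_nonneg (h1 ω) _) (norm_nonneg _)) _)
      (Finset.sum_le_sum fun ω _ => ?_) (by positivity)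
    refine Real.rpow_le_rpow (mul_nonneg (Real.rpow_nonneg (h1 ω) _) (norm_nonneg _)) ?_ hp0.le
    rw [← mul_add, map_add]
    exact mul_le_mul_of_nonneg_left (norm_add_le _ _) (Real.rpow_nonneg (h1 ω) _)
  · intro c a
    simp only [F, map_smul, norm_smul, Real.mul_rpow (norm_nonneg _) (norm_nonneg _)]
    have : ∑ ω, w ω * (‖c‖ ^ p * ‖T ω a‖ ^ p) = ‖c‖ ^ p * ∑ ω, w ω * ‖T ω a‖ ^ p := by
      rw [Finset.mul_sum]
      exact Finset.sum_congr rfl fun ω _ => by ring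
    rw [this, Real.mul_rpow (by positivity) (hnn a), one_div,
      Real.rpow_rpow_inv (norm_nonneg _) hp0.ne']
  · intro i
    change F _ ≤ 1
    refine Real.rpow_le_one (hnn _) ?_ (by positivity)
    refine le_trans (Finset.sum_le_sum fun ω _ => mul_le_of_le_one_right (h1 ω) ?_) h2.le
    refine Real.rpow_le_one (norm_nonneg _) ?_ hp0.le
    simpa [T] using h3 ω i
  · intro S _ _ μ P k1 k2 k3 k4 k5 f t ht
    change ∑ i, ∑ j, μ i * (P ^ t) i j * F (f j - f i) ^ p ≤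
      C * t * ∑ i, ∑ j, μ i * P i j * F (f j - f i) ^ p
    have e : ∀ Q : Matrix S S ℝ, ∑ i, ∑ j, μ i * Q i j * F (f j - f i) ^ p =
        ∑ ω, w ω * ∑ i, ∑ j, μ i * Q i j * ‖T ω (f j) - T ω (f i)‖ ^ p := by
      intro Q
      simp only [hF, Finset.mul_sum, map_sub]
      rw [Finset.sum_comm (γ := Ω)]
      refine Finset.sum_congr rfl fun i _ => ?_
      rw [Finset.sum_comm (γ := Ω)]
      exact Finset.sum_congr rfl fun j _ => Finset.sum_congr rfl fun ω _ => by ring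
    rw [e, e, Finset.mul_sum]
    refine Finset.sum_le_sum fun ω _ => ?_
    have := mul_le_mul_of_nonneg_left
      (hMT S μ P k1 k2 k3 k4 k5 (fun i => T ω (f i)) t ht) (h1 ω)
    linarith
  · intro a
    exact Real.arith_mean_le_rpow_mean univ w (fun ω => ‖T ω a‖) (fun ω _ => h1 ω) h2
      (fun ω _ => norm_nonneg _) hp

end Vale.Agent.P125
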