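import Mathlib
import Vale.Agent.P125.Tree

namespace Vale.Agent.P125

open Finset Filter Topology

variable {X : Type*} [NormedAddCommGroup X] [NormedSpace ℝ X]

theorem exists_uc {p C : ℝ} (hp : 1 < p) (hC : 0 ≤ C) (hMT : MT (fun x : X => ‖x‖) p C) :
    ∃ N : Seminorm ℝ X, IsEquivalentNorm N ∧ IsUniformlyConvex N := by
  let B : X →ₗ[ℝ] StrongDual ℝ X →ₗ[ℝ] ℝ := (ContinuousLinearMap.coeLM ℝ).flip
  have hBa : ∀ z (f : StrongDual ℝ X), B z f = f z := fun _ _ => rfl
  refine renorm_of_Tr B ?_ ?_
  · intro z ε hε hz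
    obtain ⟨g, hg1, hg2⟩ := exists_dual_vector'' ℝ z
    have hz0 : 0 < ‖z‖ := by linarith
    refine ⟨(ε / 2 / ‖z‖) • g, ?_, ?_⟩
    · rw [norm_smul, Real.norm_of_nonneg (by positivity)]
      have : ε / 2 / ‖z‖ ≤ 1 := by rw [div_le_one hz0]; linarith
      exact mul_le_one₀ this (norm_nonneg _) hg1
    · rw [hBa]
      simp only [ContinuousLinearMap.smul_apply, hg2, smul_eq_mul, RCLike.ofReal_real_eq_id, id]
      field_simp
  · intro ε hε
    by_contra hc
    push Not at hc
    choose z hz using hc
    have : ∀ n, ∃ N : Seminorm ℝ V, (∀ i, N (Finsupp.single i 1) ≤ 1) ∧ MT N p C ∧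
        ∀ a : V, (∀ i ∈ a.support, i < n) → ∀ k, ε / 8 * |head k a| ≤ N a := by
      intro n
      obtain ⟨Ω, i1, w, M, g, h1, h2, h3, h4, -, -, h7⟩ := hz (n + 1)
      obtain ⟨N, k1, k2, k3⟩ := lp_seminorm hp.le hMT w M h1 h2 h3
      refine ⟨N, k1, k2, fun a ha k => ?_⟩
      have tail : ∀ k < n + 1, ε / 4 * |head n a - head k a| ≤ N a := by
        intro k hk
        refine le_trans ?_ (k3 a)
        have e : ε / 4 * (head n a - head k a) =
            ∑ ω, w ω * g ω k (Finsupp.linearCombination ℝ (M ω) a) := by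
          simp only [head, Finsupp.linearCombination_apply, Finsupp.sum, map_sum, map_smul,
            Finset.mul_sum, smul_eq_mul, ← Finset.sum_sub_distrib]
          rw [Finset.sum_comm]
          refine Finset.sum_congr rfl fun i hi => ?_
          have := h7 i k hk
          simp only [hBa] at this
          have e2 : ∑ ω, w ω * (a i * g ω k (M ω i)) = a i * ∑ ω, w ω * g ω k (M ω i) := by
            rw [Finset.mul_sum]; exact Finset.sum_congr rfl fun ω _ => by ring
          rw [e2, this, if_pos (ha i hi)]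
          by_cases hik : k ≤ i
          · rw [if_pos hik, if_neg (by omega)]; ring
          · rw [if_neg hik, if_pos (by omega)]; ring
        rw [← abs_of_pos (show 0 < ε / 4 by positivity), ← abs_mul, e]
        refine (Finset.abs_sum_le_sum_abs _ _).trans (Finset.sum_le_sum fun ω _ => ?_)
        rw [abs_mul, abs_of_nonneg (h1 ω)]
        refine mul_le_mul_of_nonneg_left ?_ (h1 ω)
        exact ((g ω k).le_opNorm _).trans (mul_le_of_le_one_left (norm_nonneg _) (h4 ω k))
      have t0 := tail 0 (by omega)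
      have h0 : head 0 a = 0 := by simp [head, Finsupp.linearCombination_apply]
      rw [h0, sub_zero] at t0
      by_cases hk : k < n + 1
      · have t1 := tail k hk
        have := abs_sub (head n a) (head n a - head k a)
        rw [sub_sub_cancel] at this
        nlinarith
      · have : head k a = head n a := by
          simp only [head, Finsupp.linearCombination_apply, Finsupp.sum]
          refine Finset.sum_congr rfl fun i hi => ?_
          have := ha i hi
          rw [if_pos (by omega), if_pos this]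
        rw [this]
        have := abs_nonneg (head n a)
        nlinarith
    choose N k1 k2 k3 using this
    exact no_james hp hC (by positivity) N k1 k2 k3

theorem exists_uc_dual {p C : ℝ} (hp : 1 < p) (hC : 0 ≤ C) (hMT : MT (fun x : X => ‖x‖) p C) :
    ∃ N : Seminorm ℝ (StrongDual ℝ X), IsEquivalentNorm N ∧ IsUniformlyConvex N := by
  let B : StrongDual ℝ X →ₗ[ℝ] X →ₗ[ℝ] ℝ := ContinuousLinearMap.coeLM ℝ
  have hBa : ∀ z (f : StrongDual ℝ X), B f z = f z := fun _ _ => rfl
  refine renorm_of_Tr B ?_ ?_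
  · intro f ε hε hf
    obtain ⟨x, hx1, hx2⟩ := f.exists_lt_apply_of_lt_opNorm (r := ε / 2) (by linarith)
    rw [Real.norm_eq_abs] at hx2
    have hx0 : 0 < |f x| := by linarith
    refine ⟨(ε / 2 / f x) • x, ?_, ?_⟩
    · rw [norm_smul, Real.norm_eq_abs, abs_div, abs_of_pos (by positivity)]
      have : ε / 2 / |f x| ≤ 1 := by rw [div_le_one hx0]; linarith
      exact mul_le_one₀ this (norm_nonneg _) hx1.le
    · rw [hBa, map_smul, smul_eq_mul]
      have := abs_pos.1 hx0
      field_simp
  · intro ε hε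
    by_contra hc
    push Not at hc
    choose z hz using hc
    have : ∀ n, ∃ N : Seminorm ℝ V, (∀ i, N (Finsupp.single i 1) ≤ 1) ∧ MT N p C ∧
        ∀ a : V, (∀ i ∈ a.support, i < n) → ∀ k, ε / 4 * |head k a| ≤ N a := by
      intro n
      obtain ⟨Ω, i1, w, M, g, h1, h2, h3, h4, -, -, h7⟩ := hz n
      obtain ⟨N, k1, k2, k3⟩ := lp_seminorm hp.le hMT w g h1 h2 h4
      refine ⟨N, k1, k2, fun a ha k => ?_⟩
      cases k with
      | zero => simp [head, Finsupp.linearCombination_apply]
      | succ k =>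
        refine le_trans ?_ (k3 a)
        have e : ε / 4 * head (k + 1) a =
            ∑ ω, w ω * M ω k (Finsupp.linearCombination ℝ (g ω) a) := by
          simp only [head, Finsupp.linearCombination_apply, Finsupp.sum, map_sum, map_smul,
            Finset.mul_sum, smul_eq_mul]
          rw [Finset.sum_comm]
          refine Finset.sum_congr rfl fun i hi => ?_
          have := h7 k i (ha i hi)
          simp only [hBa] at this
          have e2 : ∑ ω, w ω * (a i * M ω k (g ω i)) = a i * ∑ ω, w ω * M ω k (g ω i) := by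
            rw [Finset.mul_sum]; exact Finset.sum_congr rfl fun ω _ => by ring
          rw [e2, this]
          by_cases hik : i ≤ k
          · rw [if_pos hik, if_pos (by omega)]; ring
          · rw [if_neg hik, if_neg (by omega)]; ring
        rw [← abs_of_pos (show 0 < ε / 4 by positivity), ← abs_mul, e]
        refine (Finset.abs_sum_le_sum_abs _ _).trans (Finset.sum_le_sum fun ω _ => ?_)
        rw [abs_mul, abs_of_nonneg (h1 ω)]
        refine mul_le_mul_of_nonneg_left ?_ (h1 ω)
        exact ((M ω k).le_opNorm _).trans (mul_le_of_le_one_left (norm_nonneg _) (h3 ω k))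
    choose N k1 k2 k3 using this
    exact no_james hp hC (by positivity) N k1 k2 k3

/-- the predual norm of a uniformly convex norm is uniformly smooth -/
theorem smooth_of_dual (N : Seminorm ℝ (StrongDual ℝ X)) (h1 : IsEquivalentNorm N)
    (h2 : IsUniformlyConvex N) :
    ∃ N' : Seminorm ℝ X, IsEquivalentNorm N' ∧ IsUniformlySmooth N' := by
  obtain ⟨a, b, ha, hb, hab⟩ := h1
  let F : X → ℝ := fun x => sSup {r | ∃ f, N f ≤ 1 ∧ r = f x}
  have hbd : ∀ x (f : StrongDual ℝ X), N f ≤ 1 → f x ≤ a⁻¹ * ‖x‖ := by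
    intro x f hf
    refine (le_abs_self _).trans ((f.le_opNorm x).trans ?_)
    refine mul_le_mul_of_nonneg_right ?_ (norm_nonneg _)
    rw [← one_div, le_div_iff₀ ha]
    have := (hab f).1
    linarith
  have hne : ∀ x, {r | ∃ f : StrongDual ℝ X, N f ≤ 1 ∧ r = f x}.Nonempty :=
    fun x => ⟨0, 0, by simp, by simp⟩
  have le_F : ∀ x (f : StrongDual ℝ X), N f ≤ 1 → f x ≤ F x := fun x f hf =>
    le_csSup ⟨a⁻¹ * ‖x‖, by rintro r ⟨g, hg, rfl⟩; exact hbd x g hg⟩ ⟨f, hf, rfl⟩
  have F_le : ∀ x c, (∀ f : StrongDual ℝ X, N f ≤ 1 → f x ≤ c) → F x ≤ c := fun x c h =>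
    csSup_le (hne x) (by rintro r ⟨g, hg, rfl⟩; exact h g hg)
  have F0 : ∀ x, 0 ≤ F x := fun x => by simpa using le_F x 0 (by simp)
  have le_F' : ∀ x (f : StrongDual ℝ X), f x ≤ N f * F x := by
    intro x f
    rcases (apply_nonneg N f).eq_or_lt with h | h
    · have := (hab f).1
      rw [← h] at this ⊢
      have h0 : ‖f‖ = 0 := le_antisymm (by nlinarith [norm_nonneg f]) (norm_nonneg f)
      rw [norm_eq_zero.1 h0]; simp
    · have := le_F x ((N f)⁻¹ • f) (by
        rw [map_smul_eq_mul, Real.norm_of_nonneg (by positivity), inv_mul_cancel₀ h.ne'])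
      simp only [ContinuousLinearMap.smul_apply, smul_eq_mul] at this
      rwa [inv_mul_le_iff₀ h] at this
  have abs_le_F : ∀ x (f : StrongDual ℝ X), |f x| ≤ N f * F x := by
    intro x f
    refine abs_le.2 ⟨?_, le_F' x f⟩
    have := le_F' x (-f)
    simp only [ContinuousLinearMap.neg_apply, map_neg_eq_map] at this
    linarith
  let N' : Seminorm ℝ X := Seminorm.ofSMulLE F
    (le_antisymm (F_le 0 0 fun f _ => by simp) (F0 0))
    (fun x y => F_le _ _ fun f hf => by
      rw [map_add]; exact add_le_add (le_F x f hf) (le_F y f hf))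
    (fun r x => F_le _ _ fun f hf => by
      rw [map_smul, smul_eq_mul]
      refine (le_abs_self _).trans ?_
      rw [abs_mul, Real.norm_eq_abs]
      refine mul_le_mul_of_nonneg_left ((abs_le_F x f).trans ?_) (abs_nonneg _)
      exact mul_le_of_le_one_left (F0 x) hf)
  have hN' : ∀ x, N' x = F x := fun _ => rfl
  refine ⟨N', ⟨b⁻¹, a⁻¹, by positivity, by positivity, fun x => ⟨?_, F_le _ _ (hbd x)⟩⟩, ?_⟩
  · obtain ⟨g, hg1, hg2⟩ := exists_dual_vector'' ℝ x
    have h3 := le_F' x g
    have h4 := (hab g).2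
    simp only [RCLike.ofReal_real_eq_id, id] at hg2
    rw [hN', inv_mul_le_iff₀ hb, ← hg2]
    refine h3.trans (mul_le_mul_of_nonneg_right ?_ (F0 x))
    exact h4.trans (mul_le_of_le_one_right hb.le hg1)
  · rw [IsUniformlySmooth, Metric.tendsto_nhdsWithin_nhds]
    intro ε hε
    obtain ⟨η, hη0, hη1, hη2⟩ : ∃ η : ℝ, 0 < η ∧ η ≤ 2 ∧ η ≤ ε :=
      ⟨min 2 ε, by positivity, min_le_left _ _, min_le_right _ _⟩
    obtain ⟨δ, hδ, hδ'⟩ := h2 η hη0 hη1
    refine ⟨δ, hδ, fun τ hτ hτδ => ?_⟩
    have hτ0 : 0 < τ := hτ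
    rw [Real.dist_eq, sub_zero, abs_of_pos hτ0] at hτδ
    have lo : 0 ≤ smoothModulus N' τ := by
      refine Real.sSup_nonneg ?_
      rintro r ⟨x, y, hx, hy, rfl⟩
      have := map_add_le_add N' (x + τ • y) (x - τ • y)
      rw [show x + τ • y + (x - τ • y) = (2 : ℝ) • x by rw [two_smul]; abel, map_smul_eq_mul,
        hx] at this
      norm_num at this
      linarith
    have hi : smoothModulus N' τ ≤ τ * η / 2 := by
      refine Real.sSup_le ?_ (by positivity)
      rintro r ⟨x, y, hx, hy, rfl⟩
      rw [hN'] at hx hy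
      have key : ∀ f g : StrongDual ℝ X, N f ≤ 1 → N g ≤ 1 →
          f (x + τ • y) + g (x - τ • y) ≤ 2 + τ * η := by
        intro f g hf hg
        have e : f (x + τ • y) + g (x - τ • y) =
            2 * ((1 / 2 : ℝ) • (f + g)) x + τ * (f - g) y := by
          simp only [map_add, map_sub, map_smul, smul_eq_mul, ContinuousLinearMap.smul_apply,
            ContinuousLinearMap.add_apply, ContinuousLinearMap.sub_apply]
          ring
        have a1 := le_F' x ((1 / 2 : ℝ) • (f + g))
        have a2 := le_F' y (f - g)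
        rw [hx, mul_one] at a1
        rw [hy, mul_one] at a2
        rw [e]
        by_cases hfg : η ≤ N (f - g)
        · have a3 := hδ' f g hf hg hfg
          have a4 := map_sub_le_add N f g
          have : τ * (f - g) y ≤ τ * 2 := mul_le_mul_of_nonneg_left (by linarith) hτ0.le
          have : 0 ≤ τ * η := by positivity
          linarith
        · have a3 : N ((1 / 2 : ℝ) • (f + g)) ≤ 1 := by
            rw [map_smul_eq_mul]
            have := map_add_le_add N f g
            norm_num
            linarith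
          have : τ * (f - g) y ≤ τ * η := mul_le_mul_of_nonneg_left (by linarith) hτ0.le
          linarith
      have b1 : F (x + τ • y) ≤ 2 + τ * η - F (x - τ • y) := F_le _ _ fun f hf => by
        have : F (x - τ • y) ≤ 2 + τ * η - f (x + τ • y) := F_le _ _ fun g hg => by
          have := key f g hf hg
          linarith
        linarith
      rw [hN', hN']
      linarith
    rw [Real.dist_eq, sub_zero, abs_of_nonneg (div_nonneg lo hτ0.le), div_lt_iff₀ hτ0]
    nlinarith

theorem main (X : Type*) [NormedAddCommGroup X] [NormedSpace ℝ X] (p : ℝ) (hp : 1 < p)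
    (h : HasMarkovType X p) :
    (∃ N : Seminorm ℝ X, IsEquivalentNorm N ∧ IsUniformlySmooth N) ∧
      ∃ N : Seminorm ℝ X, IsEquivalentNorm N ∧ IsUniformlyConvex N := by
  obtain ⟨K, hK, hMT⟩ := h
  have hC : 0 ≤ K ^ p := Real.rpow_nonneg hK p
  obtain ⟨N, h1, h2⟩ := exists_uc_dual (X := X) hp hC hMT
  exact ⟨smooth_of_dual N h1 h2, exists_uc hp hC hMT⟩

end Vale.Agent.P125
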